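import Mathlib

set_option autoImplicit false

open CategoryTheory Simplicial Opposite

namespace Crest.Agent.R123

/-- standard topological simplex -/
abbrev Dl (n : ℕ) : Type := stdSimplex ℝ (Fin (n + 1))

/-- face inclusion -/
noncomputable def face {n : ℕ} (i : Fin (n + 2)) : C(Dl n, Dl (n + 1)) :=
  ⟨stdSimplex.map i.succAbove, stdSimplex.continuous_map _⟩

/-- singular simplex attached to a continuous map -/
noncomputable def toS {X : Type} [TopologicalSpace X] {n : ℕ} (σ : C(Dl n, X)) :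
    (TopCat.toSSet.obj (TopCat.of X)) _⦋n⦌ :=
  ((TopCat.of X).toSSetObjEquiv (op ⦋n⦌)).symm σ

/-- continuous map attached to a singular simplex -/
noncomputable def ofS {X : Type} [TopologicalSpace X] {n : ℕ}
    (σ : (TopCat.toSSet.obj (TopCat.of X)) _⦋n⦌) : C(Dl n, X) :=
  (TopCat.of X).toSSetObjEquiv (op ⦋n⦌) σ

theorem toS_ofS {X : Type} [TopologicalSpace X] {n : ℕ}
    (σ : (TopCat.toSSet.obj (TopCat.of X)) _⦋n⦌) : toS (ofS σ) = σ :=
  Equiv.symm_apply_apply _ _

theorem ofS_toS {X : Type} [TopologicalSpace X] {n : ℕ} (σ : C(Dl n, X)) : ofS (toS σ) = σ :=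
  Equiv.apply_symm_apply _ _

theorem δ_toS {X : Type} [TopologicalSpace X] {n : ℕ} (σ : C(Dl (n + 1), X)) (i : Fin (n + 2)) :
    (TopCat.toSSet.obj (TopCat.of X)).δ i (toS σ) = toS (σ.comp (face i)) := rfl

theorem map_toS {X : Type} [TopologicalSpace X] {n : ℕ} (σ : C(Dl n, X)) (f : C(X, X)) :
    (TopCat.toSSet.map (TopCat.ofHom f)).app (op ⦋n⦌) (toS σ) = toS (f.comp σ) := rfl

theorem eigen_two {X : Type} [TopologicalSpace X] (f : C(X, X)) (A k : C(Dl 2, X))
    (τ : C(Dl 3, X)) (φ : C(Dl 2, X) → ℝ)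
    (hface : ∀ i, A.comp (face i) = k.comp (face i))
    (h0 : τ.comp (face 0) = A) (h1 : τ.comp (face 1) = f.comp A) (h2 : τ.comp (face 2) = A)
    (h3 : τ.comp (face 3) = k) (hk : f.comp k = k)
    (hφ : ∀ σ : C(Dl 3, X), φ (σ.comp (face 0)) - φ (σ.comp (face 1)) + φ (σ.comp (face 2))
      - φ (σ.comp (face 3)) = 0)
    (hne : φ A ≠ φ k) :
    Module.End.HasEigenvalue
      (((AlgebraicTopology.singularHomologyFunctor (ModuleCat.{0} ℝ) 2).obj
        (ModuleCat.of ℝ ℝ)).map (TopCat.ofHom f)).hom (2 : ℝ) := by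
  let R : ModuleCat.{0} ℝ := ModuleCat.of ℝ ℝ
  let S : SSet.{0} := TopCat.toSSet.obj (TopCat.of X)
  let K : ChainComplex (ModuleCat.{0} ℝ) ℕ := S.chainComplex R
  let F : K ⟶ K := SSet.chainComplexMap (TopCat.toSSet.map (TopCat.ofHom f)) R
  let ι : ∀ {n : ℕ}, C(Dl n, X) → (R ⟶ K.X n) := fun σ => S.ιChainComplex (toS σ)
  have ιF : ∀ {n : ℕ} (σ : C(Dl n, X)), ι σ ≫ F.f n = ι (f.comp σ) := fun σ =>
    SSet.ι_chainComplexMap_f _ _ _ _ _
  have ιd : ∀ {n : ℕ} (σ : C(Dl (n + 1), X)), ι σ ≫ K.d (n + 1) n =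
      ∑ i : Fin (n + 2), (-1 : ℤ) ^ i.val • ι (σ.comp (face i)) := fun σ =>
    SSet.ιChainComplex_d _ _ _
  let c : R ⟶ K.X 2 := ι A - ι k
  have hc : c ≫ K.d 2 1 = 0 := by
    simp only [c, Preadditive.sub_comp]
    rw [ιd A, ιd k]
    simp only [hface, sub_self]
  have hn : (ComplexShape.down ℕ).next 2 = 1 := by simp
  have hp : (ComplexShape.down ℕ).prev 2 = 3 := by simp
  let z : R ⟶ K.homology 2 := K.liftCycles c 1 hn hc ≫ K.homologyπ 2
  let ψ : K.X 2 ⟶ R := (S.isColimitChainComplexXCofan R 2).desc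
    (Limits.Cofan.mk R fun x => φ (ofS x) • 𝟙 R)
  have ιψ : ∀ σ : C(Dl 2, X), ι σ ≫ ψ = φ σ • 𝟙 R := by
    intro σ
    have := (S.isColimitChainComplexXCofan R 2).fac
      (Limits.Cofan.mk R fun x => φ (ofS x) • 𝟙 R) ⟨toS σ⟩
    simp only [Limits.Cofan.mk_ι_app, ofS_toS] at this
    exact this
  have hψ : K.d 3 2 ≫ ψ = 0 := by
    apply SSet.chainComplex_hom_ext
    intro x
    rw [← toS_ofS x, ← Category.assoc]
    change (ι (ofS x) ≫ K.d (2 + 1) 2) ≫ ψ = _
    rw [ιd, Fin.sum_univ_four]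
    simp only [Preadditive.add_comp, Preadditive.zsmul_comp, ιψ]
    have := hφ (ofS x)
    ext
    simp
    linarith
  have hz : z ≫ K.homologyι 2 ≫ K.descOpcycles ψ 3 hp hψ = (φ A - φ k) • 𝟙 R := by
    simp only [z, Category.assoc, HomologicalComplex.homology_π_ι_assoc,
      HomologicalComplex.liftCycles_i_assoc, HomologicalComplex.p_descOpcycles]
    simp only [c, Preadditive.sub_comp, ιψ, sub_smul]
  have hb : c + c - c ≫ F.f 2 = ι τ ≫ K.d 3 2 := by
    change _ = ι τ ≫ K.d (2 + 1) 2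
    rw [ιd, Fin.sum_univ_four, h0, h1, h2, h3]
    simp only [c, Preadditive.sub_comp, ιF, hk]
    simp
    abel
  have hzF : z ≫ HomologicalComplex.homologyMap F 2 = z + z := by
    have e1 : z ≫ HomologicalComplex.homologyMap F 2 =
        K.liftCycles (c ≫ F.f 2) 1 hn (by rw [Category.assoc, F.comm, reassoc_of% hc,
          Limits.zero_comp]) ≫ K.homologyπ 2 := by
      simp only [z, Category.assoc, HomologicalComplex.homologyπ_naturality]
      rw [← Category.assoc, HomologicalComplex.liftCycles_comp_cyclesMap]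
    have e2 : K.liftCycles (ι τ ≫ K.d 3 2) 1 hn (by simp) ≫ K.homologyπ 2 = 0 :=
      K.liftCycles_homologyπ_eq_zero_of_boundary _ 1 hn (ι τ) rfl
    rw [e1, ← sub_eq_zero, ← neg_eq_zero, ← e2, ← Preadditive.add_comp,
      ← Preadditive.sub_comp, ← Preadditive.neg_comp]
    congr 1
    rw [← cancel_mono (K.iCycles 2)]
    simp only [Preadditive.neg_comp, Preadditive.sub_comp, Preadditive.add_comp,
      HomologicalComplex.liftCycles_i, ← hb]
    abel
  refine Module.End.hasEigenvalue_of_hasEigenvector (x := z.hom (1 : ℝ)) ⟨?_, ?_⟩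
  · rw [Module.End.mem_eigenspace_iff]
    have := congrArg (fun g : R ⟶ K.homology 2 => g.hom (1 : ℝ)) hzF
    simp only [ModuleCat.hom_comp, LinearMap.comp_apply, ModuleCat.hom_add,
      LinearMap.add_apply] at this
    rw [two_smul]
    exact this
  · intro h
    have := congrArg (fun g : R ⟶ R => g.hom (1 : ℝ)) hz
    simp only [ModuleCat.hom_comp, LinearMap.comp_apply] at this
    have h' : z.hom (1 : ℝ) = 0 := h
    rw [h', map_zero, map_zero] at this
    simp at this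
    exact hne (by linarith)

end Crest.Agent.R123
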