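import Mathlib
import Crest.Agent.R123.Homol

set_option autoImplicit false

open Filter Complex
open scoped Topology ComplexConjugate

namespace Crest.Agent.R123

theorem of_contractible {D Y : Type*} [TopologicalSpace D] [CompactSpace D]
    [ContractibleSpace D] [MetricSpace Y] (Q : C(D, Y) → Prop) (P : Y → Prop)
    (hconst : ∀ y, P y → Q (ContinuousMap.const D y))
    (hloc : ∀ g : C(D, Y), (∀ x, P (g x)) → ∃ ε > 0, ∀ g' : C(D, Y), (∀ x, P (g' x)) →
      dist g' g < ε → (Q g' ↔ Q g))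
    (σ : C(D, Y)) (hP : ∀ x, P (σ x)) : Q σ := by
  obtain ⟨x0, ⟨H⟩⟩ := id_nullhomotopic D
  let γ : unitInterval → C(D, Y) := fun t => σ.comp (H.toContinuousMap.curry t)
  have hγ : Continuous γ := (ContinuousMap.continuous_postcomp σ).comp (map_continuous _)
  have hlc : IsLocallyConstant fun t => Q (γ t) := by
    rw [IsLocallyConstant.iff_eventually_eq]
    intro t
    obtain ⟨ε, hε, h⟩ := hloc (γ t) (fun x => hP _)
    have := hγ.continuousAt.eventually (Metric.ball_mem_nhds (γ t) hε)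
    filter_upwards [this] with t' ht'
    exact propext (h (γ t') (fun x => hP _) ht')
  have h01 := hlc.apply_eq_of_preconnectedSpace 0 1
  have e0 : γ 0 = σ := by ext x; simp [γ]
  have e1 : γ 1 = ContinuousMap.const D (σ x0) := by ext x; simp [γ]
  rw [e0, e1] at h01
  rw [h01]
  exact hconst _ (hP _)

theorem exists_log {D : Type*} [TopologicalSpace D] [CompactSpace D] [ContractibleSpace D]
    (g : C(D, ℂ)) (hg : ∀ x, g x ≠ 0) : ∃ L : C(D, ℂ), ∀ x, exp (L x) = g x := by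
  refine of_contractible (fun g => ∃ L : C(D, ℂ), ∀ x, exp (L x) = g x) (fun y => y ≠ 0)
    ?_ ?_ g hg
  · intro y hy
    exact ⟨ContinuousMap.const D (log y), fun _ => exp_log hy⟩
  · intro g hg
    obtain ⟨x0, -, hx0⟩ := isCompact_univ.exists_isMinOn Set.univ_nonempty
      (f := fun x => ‖g x‖) (by fun_prop)
    refine ⟨‖g x0‖, norm_pos_iff.2 (hg x0), fun g' hg' hd => ?_⟩
    have hs : ∀ x, g' x / g x ∈ slitPlane := by
      intro x
      apply ball_one_subset_slitPlane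
      rw [mem_ball_iff_norm]
      have h1 : dist (g' x) (g x) < ‖g x0‖ := (ContinuousMap.dist_apply_le_dist x).trans_lt hd
      have h2 : ‖g x0‖ ≤ ‖g x‖ := hx0 (Set.mem_univ x)
      have h3 : g' x / g x - 1 = (g' x - g x) / g x := by field_simp [hg x]
      rw [h3, norm_div, div_lt_one (norm_pos_iff.2 (hg x)), ← dist_eq_norm]
      linarith
    let l : C(D, ℂ) := ⟨fun x => log (g' x / g x),
      Continuous.clog ((map_continuous g').div (map_continuous g) hg) hs⟩
    have hl : ∀ x, exp (l x) = g' x / g x := fun x => exp_log (slitPlane_ne_zero (hs x))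
    constructor
    · rintro ⟨L, hL⟩
      refine ⟨L - l, fun x => ?_⟩
      rw [ContinuousMap.sub_apply, exp_sub, hL, hl]
      field_simp [hg x, hg' x]
    · rintro ⟨L, hL⟩
      refine ⟨L + l, fun x => ?_⟩
      rw [ContinuousMap.add_apply, exp_add, hL, hl]
      field_simp [hg x]

/-- `v` is a nonzero vector on the complex line described by the point `s` of the sphere. -/
def IsLift (s : ℂ × ℝ) (v : ℂ × ℂ) : Prop :=
  v ≠ 0 ∧ s.1 * v.2 = (1 - s.2) * v.1 ∧ conj s.1 * v.1 = (1 + s.2) * v.2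

/-- twice the projector -/
def prj (s : ℂ × ℝ) (v : ℂ × ℂ) : ℂ × ℂ :=
  ((1 + s.2) * v.1 + s.1 * v.2, conj s.1 * v.1 + (1 - s.2) * v.2)

theorem mul_conj_of {s : ℂ × ℝ} (hs : ‖s.1‖ ^ 2 + s.2 ^ 2 = 1) :
    s.1 * conj s.1 = 1 - (s.2 : ℂ) ^ 2 := by
  rw [mul_conj, normSq_eq_norm_sq]
  have : ‖s.1‖ ^ 2 = 1 - s.2 ^ 2 := by linarith
  rw [this]; push_cast; ring

theorem isLift_prj {s : ℂ × ℝ} (hs : ‖s.1‖ ^ 2 + s.2 ^ 2 = 1) {v : ℂ × ℂ} (h : prj s v ≠ 0) :
    IsLift s (prj s v) := by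
  have := mul_conj_of hs
  refine ⟨h, ?_, ?_⟩
  · simp only [prj]; linear_combination v.1 * this
  · simp only [prj]; linear_combination v.2 * this

theorem prj_ne_zero {s s' : ℂ × ℝ} {v : ℂ × ℂ} (h : IsLift s v) (hd : dist s' s < 1) :
    prj s' v ≠ 0 := by
  obtain ⟨h0, h1, h2⟩ := h
  intro e
  have e1 : (1 + s'.2) * v.1 + s'.1 * v.2 = 0 := congrArg Prod.fst e
  have e2 : conj s'.1 * v.1 + (1 - s'.2) * v.2 = 0 := congrArg Prod.snd e
  have d1 : ‖s'.1 - s.1‖ < 1 := by
    rw [← dist_eq_norm]; exact (le_max_left _ _).trans_lt hd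
  have d2 : ‖((s'.2 - s.2 : ℝ) : ℂ)‖ < 1 := by
    rw [norm_real, ← dist_eq_norm]; exact (le_max_right _ _).trans_lt hd
  have f1 : 2 * v.1 = -(((s'.2 - s.2 : ℝ) : ℂ) * v.1 + (s'.1 - s.1) * v.2) := by
    push_cast; linear_combination e1 - h1
  have f2 : 2 * v.2 = -(conj (s'.1 - s.1) * v.1 - ((s'.2 - s.2 : ℝ) : ℂ) * v.2) := by
    rw [map_sub]; push_cast; linear_combination e2 - h2
  have n1 : 2 * ‖v.1‖ ≤ ‖((s'.2 - s.2 : ℝ) : ℂ)‖ * ‖v.1‖ + ‖s'.1 - s.1‖ * ‖v.2‖ := by
    have := congrArg norm f1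
    rw [norm_neg, norm_mul, Complex.norm_two] at this
    rw [this, ← norm_mul, ← norm_mul]
    exact norm_add_le _ _
  have n2 : 2 * ‖v.2‖ ≤ ‖s'.1 - s.1‖ * ‖v.1‖ + ‖((s'.2 - s.2 : ℝ) : ℂ)‖ * ‖v.2‖ := by
    have := congrArg norm f2
    rw [norm_neg, norm_mul, Complex.norm_two] at this
    rw [this, ← norm_conj (s'.1 - s.1), ← norm_mul, ← norm_mul]
    exact norm_sub_le _ _
  have p : 0 < ‖v.1‖ + ‖v.2‖ := by
    by_contra hc
    apply h0
    have a1 := norm_nonneg v.1
    have a2 := norm_nonneg v.2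
    ext
    · exact norm_eq_zero.1 (by linarith)
    · exact norm_eq_zero.1 (by linarith)
  nlinarith [norm_nonneg v.1, norm_nonneg v.2]

theorem exists_lift {D : Type*} [TopologicalSpace D] [CompactSpace D] [ContractibleSpace D]
    (σ : C(D, ℂ × ℝ)) (hσ : ∀ x, ‖(σ x).1‖ ^ 2 + (σ x).2 ^ 2 = 1) :
    ∃ v : C(D, ℂ × ℂ), ∀ x, IsLift (σ x) (v x) := by
  refine of_contractible (fun σ => ∃ v : C(D, ℂ × ℂ), ∀ x, IsLift (σ x) (v x))
    (fun s => ‖s.1‖ ^ 2 + s.2 ^ 2 = 1) ?_ ?_ σ hσ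
  · intro s hs
    by_cases h : s.2 = -1
    · refine ⟨ContinuousMap.const D (prj s (0, 1)), fun _ => isLift_prj hs ?_⟩
      intro e
      have := congrArg Prod.snd e
      simp [prj, h] at this
    · refine ⟨ContinuousMap.const D (prj s (1, 0)), fun _ => isLift_prj hs ?_⟩
      intro e
      have := congrArg Prod.fst e
      simp only [prj, mul_one, mul_zero, add_zero, Prod.fst_zero] at this
      apply h
      have : ((1 + s.2 : ℝ) : ℂ) = 0 := by push_cast; exact this
      have := ofReal_eq_zero.1 this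
      linarith
  · have key : ∀ g g' : C(D, ℂ × ℝ), (∀ x, ‖(g' x).1‖ ^ 2 + (g' x).2 ^ 2 = 1) → dist g' g < 1 →
        (∃ v : C(D, ℂ × ℂ), ∀ x, IsLift (g x) (v x)) →
        ∃ v : C(D, ℂ × ℂ), ∀ x, IsLift (g' x) (v x) := by
      rintro g g' hg' hd ⟨v, hv⟩
      refine ⟨⟨fun x => prj (g' x) (v x), by unfold prj; fun_prop⟩, fun x => ?_⟩
      exact isLift_prj (hg' x)
        (prj_ne_zero (hv x) ((ContinuousMap.dist_apply_le_dist x).trans_lt hd))
    intro g hg
    exact ⟨1, one_pos, fun g' hg' hd =>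
      ⟨key g' g hg (by rwa [dist_comm]), key g g' hg' hd⟩⟩

theorem lift_rel {D : Type*} [TopologicalSpace D] [CompactSpace D] [ContractibleSpace D]
    {σ : D → ℂ × ℝ} {v v' : C(D, ℂ × ℂ)} (hv : ∀ x, IsLift (σ x) (v x))
    (hv' : ∀ x, IsLift (σ x) (v' x)) : ∃ L : C(D, ℂ), ∀ x, v' x = exp (L x) • v x := by
  have hden : ∀ x, (v x).1 * conj (v x).1 + (v x).2 * conj (v x).2 ≠ 0 := by
    intro x e
    rw [mul_conj, mul_conj] at e
    have e' : normSq (v x).1 + normSq (v x).2 = 0 := by exact_mod_cast e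
    apply (hv x).1
    have a1 := normSq_nonneg (v x).1
    have a2 := normSq_nonneg (v x).2
    ext
    · exact normSq_eq_zero.1 (by linarith)
    · exact normSq_eq_zero.1 (by linarith)
  let g : C(D, ℂ) := ⟨fun x => ((v' x).1 * conj (v x).1 + (v' x).2 * conj (v x).2) /
    ((v x).1 * conj (v x).1 + (v x).2 * conj (v x).2), Continuous.div (by fun_prop) (by fun_prop)
      hden⟩
  have hg : ∀ x, v' x = g x • v x := by
    intro x
    obtain ⟨-, a1, a2⟩ := hv x
    obtain ⟨-, b1, b2⟩ := hv' x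
    have hdet : (v' x).1 * (v x).2 = (v x).1 * (v' x).2 := by
      linear_combination (1 / 2 : ℂ) * (-(v' x).1 * a2 + (v x).1 * b2 + (v' x).2 * a1 - (v x).2 * b1)
    have := hden x
    ext
    · simp only [g, ContinuousMap.coe_mk, Prod.smul_fst, smul_eq_mul]
      rw [div_mul_eq_mul_div, eq_div_iff this]
      linear_combination conj (v x).2 * hdet
    · simp only [g, ContinuousMap.coe_mk, Prod.smul_snd, smul_eq_mul]
      rw [div_mul_eq_mul_div, eq_div_iff this]
      linear_combination -conj (v x).1 * hdet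
  obtain ⟨L, hL⟩ := exists_log g fun x e => (hv' x).1 (by rw [hg x, e, zero_smul])
  exact ⟨L, fun x => by rw [hL, hg]⟩

instance (n : ℕ) : ContractibleSpace (Dl n) :=
  (convex_stdSimplex ℝ (Fin (n + 1))).contractibleSpace ⟨_, (stdSimplex.vertex (S := ℝ) 0).2⟩

/-- vertices -/
noncomputable def vx {n : ℕ} (i : Fin (n + 1)) : Dl n := stdSimplex.vertex i

theorem face_vx {n : ℕ} (i : Fin (n + 2)) (j : Fin (n + 1)) :
    face i (vx j) = vx (i.succAbove j) := stdSimplex.map_vertex _ _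

open Classical in
/-- variation of the logarithm of the ratio of two sections along an edge -/
noncomputable def var (v v' : C(Dl 1, ℂ × ℂ)) : ℂ :=
  if h : ∃ L : C(Dl 1, ℂ), ∀ x, v' x = exp (L x) • v x then
    h.choose (vx 1) - h.choose (vx 0) else 0

theorem var_eq {v v' : C(Dl 1, ℂ × ℂ)} (hv : ∀ x, v x ≠ 0) (L : C(Dl 1, ℂ))
    (hL : ∀ x, v' x = exp (L x) • v x) : var v v' = L (vx 1) - L (vx 0) := by
  have h : ∃ L : C(Dl 1, ℂ), ∀ x, v' x = exp (L x) • v x := ⟨L, hL⟩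
  rw [var, dif_pos h]
  have hL' := h.choose_spec
  set L' := h.choose
  have e : ∀ x, exp (L' x) = exp (L x) := fun x =>
    smul_left_injective ℂ (hv x) ((hL' x).symm.trans (hL x))
  have : (fun x => L' x - (L' (vx 0) - L (vx 0))) = L := by
    refine isCoveringMap_exp.eq_of_comp_eq (by fun_prop) (map_continuous L) ?_ (vx 0) (by simp)
    funext x
    apply Subtype.ext
    simp only [Function.comp, exp_sub, e]
    field_simp
  have := congrFun this (vx 1)
  linear_combination this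

theorem face_comp {a b : Fin 4} {c d : Fin 3} (h : a.succAbove ∘ c.succAbove = b.succAbove ∘ d.succAbove) :
    (face (n := 2) a).comp (face (n := 1) c) = (face (n := 2) b).comp (face (n := 1) d) := by
  ext1 x
  change stdSimplex.map _ (stdSimplex.map _ x) = stdSimplex.map _ (stdSimplex.map _ x)
  rw [stdSimplex.map_comp_apply, stdSimplex.map_comp_apply]
  exact congrArg (fun g => stdSimplex.map g x) h

theorem exists_cocycle {X : Type} [TopologicalSpace X] (s : C(X, ℂ × ℝ))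
    (hs : ∀ x, ‖(s x).1‖ ^ 2 + (s x).2 ^ 2 = 1) :
    ∃ φ : C(Dl 2, X) → ℝ,
      (∀ σ : C(Dl 3, X), φ (σ.comp (face 0)) - φ (σ.comp (face 1)) + φ (σ.comp (face 2))
        - φ (σ.comp (face 3)) = 0) ∧
      ∀ (A k : C(Dl 2, X)) (VA Vk : C(Dl 2, ℂ × ℂ)), (∀ t, IsLift (s (A t)) (VA t)) →
        (∀ t, IsLift (s (k t)) (Vk t)) → (∀ i, A.comp (face i) = k.comp (face i)) →
        ∀ L : Fin 3 → C(Dl 1, ℂ), (∀ i t, VA (face i t) = exp (L i t) • Vk (face i t)) →
        φ A - φ k = ((L 0 (vx 1) - L 0 (vx 0)) - (L 1 (vx 1) - L 1 (vx 0)) +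
          (L 2 (vx 1) - L 2 (vx 0))).im := by
  have hl : ∀ {n : ℕ} (σ : C(Dl n, X)), ∃ v : C(Dl n, ℂ × ℂ), ∀ x, IsLift (s (σ x)) (v x) :=
    fun σ => exists_lift (s.comp σ) fun x => hs _
  choose lf hlf using @hl
  let E : C(Dl 1, X) → C(Dl 1, ℂ × ℂ) → ℂ := fun e V => var (lf e) V
  have hE : ∀ (e : C(Dl 1, X)) (V V' : C(Dl 1, ℂ × ℂ)) (L : C(Dl 1, ℂ)),
      (∀ t, IsLift (s (e t)) (V t)) → (∀ t, V' t = exp (L t) • V t) →
      E e V' = E e V + (L (vx 1) - L (vx 0)) := by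
    intro e V V' L hV hL
    obtain ⟨M, hM⟩ := lift_rel (hlf e) hV
    simp only [E]
    rw [var_eq (fun x => (hlf e x).1) M hM, var_eq (fun x => (hlf e x).1) (L + M)]
    · simp only [ContinuousMap.add_apply]; ring
    · intro x
      rw [hL, hM, ContinuousMap.add_apply, exp_add, mul_smul]
  let c : C(Dl 2, X) → C(Dl 2, ℂ × ℂ) → ℂ := fun σ V =>
    E (σ.comp (face 0)) (V.comp (face 0)) - E (σ.comp (face 1)) (V.comp (face 1)) +
      E (σ.comp (face 2)) (V.comp (face 2))
  have hc : ∀ (σ : C(Dl 2, X)) (V : C(Dl 2, ℂ × ℂ)), (∀ t, IsLift (s (σ t)) (V t)) →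
      c σ (lf σ) = c σ V := by
    intro σ V hV
    obtain ⟨L, hL⟩ := lift_rel hV (hlf σ)
    have h : ∀ i, E (σ.comp (face i)) ((lf σ).comp (face i)) = E (σ.comp (face i)) (V.comp (face i))
        + (L (face i (vx 1)) - L (face i (vx 0))) := fun i =>
      hE _ _ _ (L.comp (face i)) (fun t => hV _) (fun t => hL _)
    simp only [c, h, face_vx]
    have a1 : (0 : Fin 3).succAbove 1 = 2 := rfl
    have a2 : (0 : Fin 3).succAbove 0 = 1 := rfl
    have a3 : (1 : Fin 3).succAbove 1 = 2 := rfl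
    have a4 : (1 : Fin 3).succAbove 0 = 0 := rfl
    have a5 : (2 : Fin 3).succAbove 1 = 1 := rfl
    have a6 : (2 : Fin 3).succAbove 0 = 0 := rfl
    rw [a1, a2, a3, a4, a5, a6]
    ring
  refine ⟨fun σ => (c σ (lf σ)).im, ?_, ?_⟩
  · intro τ
    have h : ∀ i, c (τ.comp (face i)) (lf (τ.comp (face i))) =
        c (τ.comp (face i)) ((lf τ).comp (face i)) := fun i => hc _ _ fun t => hlf τ _
    simp only [h]
    simp only [c, ContinuousMap.comp_assoc]
    rw [face_comp (a := 1) (c := 0) (b := 0) (d := 0) (by decide),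
      face_comp (a := 2) (c := 0) (b := 0) (d := 1) (by decide),
      face_comp (a := 3) (c := 0) (b := 0) (d := 2) (by decide),
      face_comp (a := 2) (c := 1) (b := 1) (d := 1) (by decide),
      face_comp (a := 3) (c := 1) (b := 1) (d := 2) (by decide),
      face_comp (a := 3) (c := 2) (b := 2) (d := 2) (by decide)]
    simp only [add_im, sub_im]
    ring
  · intro A k VA Vk hA hk hface L hL
    simp only
    rw [hc A VA hA, hc k Vk hk]
    have h : ∀ i, E (A.comp (face i)) (VA.comp (face i)) = E (k.comp (face i)) (Vk.comp (face i))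
        + (L i (vx 1) - L i (vx 0)) := fun i => by
      rw [hface i]
      exact hE _ _ _ (L i) (fun t => hk _) (fun t => hL i t)
    simp only [c, h, add_im, sub_im]
    ring

end Crest.Agent.R123
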