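import Mathlib

set_option autoImplicit false

open Complex Real
open scoped Topology

namespace Crest.Agent.R123

@[fun_prop] theorem cd_re : ContDiff ℝ 1 Complex.re := Complex.reCLM.contDiff
@[fun_prop] theorem cd_im : ContDiff ℝ 1 Complex.im := Complex.imCLM.contDiff
@[fun_prop] theorem cd_ofReal : ContDiff ℝ 1 Complex.ofReal := Complex.ofRealCLM.contDiff

/-- smooth transition -/
noncomputable abbrev ST : ℝ → ℝ := Real.smoothTransition

theorem ST0 {x : ℝ} (h : x ≤ 0) : ST x = 0 := smoothTransition.zero_of_nonpos h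
theorem ST1 {x : ℝ} (h : 1 ≤ x) : ST x = 1 := smoothTransition.one_of_one_le h
theorem STn (x : ℝ) : 0 ≤ ST x := smoothTransition.nonneg x
theorem STl (x : ℝ) : ST x ≤ 1 := smoothTransition.le_one x

/-- squared modulus -/
def n2 (z : ℂ) : ℝ := z.re ^ 2 + z.im ^ 2

theorem n2_eq (z : ℂ) : n2 z = ‖z‖ ^ 2 := by
  rw [n2, ← normSq_eq_norm_sq, normSq_apply]; ring

@[fun_prop] theorem cd_n2 : ContDiff ℝ 1 n2 := by unfold n2; fun_prop

theorem n2_nonneg (z : ℂ) : 0 ≤ n2 z := by unfold n2; positivity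

/-- squared norm on `ℂ²` -/
def nsq (y : ℂ × ℂ) : ℝ := n2 y.1 + n2 y.2

@[fun_prop] theorem cd_nsq : ContDiff ℝ 1 nsq := by unfold nsq; fun_prop

theorem nsq_nonneg (y : ℂ × ℂ) : 0 ≤ nsq y := add_nonneg (n2_nonneg _) (n2_nonneg _)

theorem nsq_smul (l : ℝ) (y : ℂ × ℂ) : nsq (l • y) = l ^ 2 * nsq y := by
  simp [nsq, n2]; ring

/-- rotation parameter -/
noncomputable def rr (w : ℝ) : ℝ := ST (6 - 8 * w)

@[fun_prop] theorem cd_rr : ContDiff ℝ 1 rr := by unfold rr; fun_prop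

theorem rr0 {w : ℝ} (h : 3 / 4 ≤ w) : rr w = 0 := ST0 (by linarith)
theorem rr1 {w : ℝ} (h : w ≤ 5 / 8) : rr w = 1 := ST1 (by linarith)

/-- the stored vector -/
noncomputable def Gam (w : ℝ) (a b : ℂ) : ℂ × ℂ :=
  ((((1 - rr w) * rr w : ℝ) : ℂ) * (a - b), ((rr w ^ 2 : ℝ) : ℂ) * a + (((1 - rr w) ^ 2 : ℝ) : ℂ) * b)

/-- the basic reading -/
noncomputable def Zr (w : ℝ) (y : ℂ × ℂ) : ℂ :=
  (((1 - rr w : ℝ) : ℂ) * y.1 + ((rr w : ℝ) : ℂ) * y.2) ^ 2 +
    (((1 - rr w : ℝ) : ℂ) * y.2 - ((rr w : ℝ) : ℂ) * y.1)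

/-- scale cutoff -/
noncomputable def psi (w : ℝ) : ℝ := ST (8 * w - 3) * ST (5 - 4 * w)

/-- compactly supported reading -/
noncomputable def Gr (p : ℝ × ℂ × ℂ) : ℂ :=
  ((psi p.1 * ST (100 - nsq p.2) : ℝ) : ℂ) * Zr p.1 p.2

theorem cd_Gr : ContDiff ℝ 1 Gr := by unfold Gr Zr psi; fun_prop

theorem psi_nonneg (w : ℝ) : 0 ≤ psi w := mul_nonneg (STn _) (STn _)
theorem psi_lo {w : ℝ} (h : w ≤ 3 / 8) : psi w = 0 := by rw [psi, ST0 (by linarith), zero_mul]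
theorem psi_hi {w : ℝ} (h : 5 / 4 ≤ w) : psi w = 0 := by
  rw [psi, ST0 (x := 5 - 4 * w) (by linarith), mul_zero]
theorem psi_one {w : ℝ} (h : 1 / 2 ≤ w) (h' : w ≤ 1) : psi w = 1 := by
  rw [psi, ST1 (by linarith), ST1 (by linarith), mul_one]

theorem cs_Gr : HasCompactSupport Gr := by
  refine HasCompactSupport.intro (isCompact_closedBall (0 : ℝ × ℂ × ℂ) 11) fun p hp => ?_
  rw [mem_closedBall_zero_iff, not_le, Prod.norm_def, Prod.norm_def] at hp
  rcases lt_max_iff.1 hp with h | h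
  · have : psi p.1 = 0 := by
      rcases lt_abs.1 h with h | h
      · exact psi_hi (by linarith)
      · exact psi_lo (by linarith)
    simp [Gr, this]
  · have : ST (100 - nsq p.2) = 0 := by
      apply ST0
      rw [nsq, n2_eq, n2_eq]
      rcases lt_max_iff.1 h with h | h <;> nlinarith [norm_nonneg p.2.1, norm_nonneg p.2.2]
    simp [Gr, this]

/-- bounded squaring -/
noncomputable def Sq (z : ℂ) : ℂ := ((2 / (1 + n2 z) : ℝ) : ℂ) * z ^ 2

theorem cd_Sq : ContDiff ℝ 1 Sq := by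
  unfold Sq
  have : ∀ z : ℂ, 1 + n2 z ≠ 0 := fun z => by linarith [n2_nonneg z]
  fun_prop (disch := assumption)

theorem norm_Sq (z : ℂ) : ‖Sq z‖ ≤ 2 := by
  have := n2_nonneg z
  rw [Sq, norm_mul, norm_pow, ← n2_eq, Complex.norm_real, Real.norm_of_nonneg (by positivity),
    div_mul_eq_mul_div, div_le_iff₀ (by positivity)]
  linarith

theorem Sq_iter (j : ℕ) {ρ : ℝ} (hρ : 0 ≤ ρ) {v : ℂ} (hv : ‖v‖ = 1) :
    ∃ ρ' : ℝ, 0 ≤ ρ' ∧ Sq^[j] (ρ * v) = ρ' * v ^ (2 ^ j) ∧ (1 ≤ ρ → 1 ≤ ρ') := by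
  induction j with
  | zero => exact ⟨ρ, hρ, by simp, id⟩
  | succ j ih =>
    obtain ⟨ρ', h0, h1, h2⟩ := ih
    refine ⟨2 / (1 + ρ' ^ 2) * ρ' ^ 2, by positivity, ?_, fun h => ?_⟩
    · rw [Function.iterate_succ_apply', h1, Sq, n2_eq, norm_mul, norm_pow, hv, Complex.norm_real,
        Real.norm_of_nonneg h0]
      push_cast
      ring
    · have := h2 h
      rw [div_mul_eq_mul_div, le_div_iff₀ (by positivity)]
      nlinarith

theorem Sq_iter_zero (j : ℕ) : Sq^[j] 0 = 0 := Function.iterate_fixed (by simp [Sq]) j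

/-- the multi-scale reading -/
noncomputable def rd (δ : ℝ) (p : ℝ × ℂ × ℂ) : ℂ :=
  ∑' j : ℕ, (δ ^ j : ℝ) • Sq^[j] (Gr (2 ^ j * p.1, p.2))

theorem exists_read : ∃ δ : ℝ, 0 < δ ∧ δ ≤ 1 / 2 ∧ ContDiff ℝ 1 (rd δ) := by
  obtain ⟨M, hM⟩ := cd_Gr.continuous.bounded_above_of_compact_support cs_Gr
  obtain ⟨CG, hCG⟩ := (cd_Gr.continuous_fderiv one_ne_zero).bounded_above_of_compact_support
    (cs_Gr.fderiv ℝ)
  obtain ⟨CS, hCS⟩ := (isCompact_closedBall (0 : ℂ) (max M 2)).exists_bound_of_continuousOn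
    (cd_Sq.continuous_fderiv one_ne_zero).continuousOn
  have hCS0 : 0 ≤ CS := (norm_nonneg _).trans (hCS 0 (by simp))
  have hCG0 : 0 ≤ CG := (norm_nonneg _).trans (hCG 0)
  have hcd : ∀ j : ℕ, ContDiff ℝ 1 (fun p => Sq^[j] (Gr p)) := by
    intro j
    induction j with
    | zero => exact cd_Gr
    | succ j ih => simp only [Function.iterate_succ_apply']; exact cd_Sq.comp ih
  have hb : ∀ (j : ℕ) p, ‖Sq^[j] (Gr p)‖ ≤ max M 2 := by
    intro j p
    cases j with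
    | zero => exact (hM p).trans (le_max_left _ _)
    | succ j => rw [Function.iterate_succ_apply']; exact (norm_Sq _).trans (le_max_right _ _)
  have hd : ∀ (j : ℕ) p, ‖fderiv ℝ (fun p => Sq^[j] (Gr p)) p‖ ≤ CS ^ j * CG := by
    intro j
    induction j with
    | zero => intro p; simpa using hCG p
    | succ j ih =>
      intro p
      simp only [Function.iterate_succ_apply']
      rw [fderiv_fun_comp p (cd_Sq.differentiable one_ne_zero _)
        ((hcd j).differentiable one_ne_zero _)]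
      refine (ContinuousLinearMap.opNorm_comp_le _ _).trans ?_
      rw [pow_succ', mul_assoc]
      exact mul_le_mul (hCS _ (mem_closedBall_zero_iff.2 (hb j p))) (ih p) (norm_nonneg _) hCS0
  set δ : ℝ := 1 / (4 * CS + 4) with hδ
  have hδ0 : 0 < δ := by positivity
  have hδ1 : δ ≤ 1 / 2 := by
    rw [hδ]; apply one_div_le_one_div_of_le <;> linarith
  have hδ2 : δ * CS * 2 ≤ 1 / 2 := by
    rw [hδ, div_mul_eq_mul_div, div_mul_eq_mul_div, div_le_iff₀ (by positivity)]; linarith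
  refine ⟨δ, hδ0, hδ1, ?_⟩
  let D : ℕ → (ℝ × ℂ × ℂ →L[ℝ] ℝ × ℂ × ℂ) := fun j =>
    (((2 : ℝ) ^ j) • ContinuousLinearMap.fst ℝ ℝ (ℂ × ℂ)).prod (ContinuousLinearMap.snd ℝ ℝ (ℂ × ℂ))
  have hD : ∀ j, ‖D j‖ ≤ 2 ^ j := by
    intro j
    refine ContinuousLinearMap.opNorm_le_bound _ (by positivity) fun p => ?_
    have h1 : (1 : ℝ) ≤ 2 ^ j := one_le_pow₀ (by norm_num)
    have e : D j p = (2 ^ j * p.1, p.2) := rfl
    rw [e, Prod.norm_def]
    refine max_le ?_ ?_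
    · rw [norm_mul, norm_pow, Real.norm_two]
      exact mul_le_mul_of_nonneg_left (norm_fst_le p) (by positivity)
    · exact (norm_snd_le p).trans (le_mul_of_one_le_left (norm_nonneg _) h1)
  let T : ℕ → ℝ × ℂ × ℂ → ℂ := fun j p => (δ ^ j : ℝ) • Sq^[j] (Gr (D j p))
  have hT : ∀ j, ContDiff ℝ 1 (T j) := fun j => ((hcd j).comp (D j).contDiff).const_smul _
  have hTd : ∀ j p, ‖fderiv ℝ (T j) p‖ ≤ CG * (1 / 2) ^ j := by
    intro j p
    have h1 : HasFDerivAt (T j)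
        ((δ ^ j : ℝ) • ((fderiv ℝ (fun p => Sq^[j] (Gr p)) (D j p)).comp (D j))) p :=
      (((hcd j).differentiable one_ne_zero _).hasFDerivAt.comp p (D j).hasFDerivAt).const_smul
        (δ ^ j : ℝ)
    rw [h1.fderiv, norm_smul, norm_pow, Real.norm_of_nonneg hδ0.le]
    calc δ ^ j * ‖(fderiv ℝ (fun p => Sq^[j] (Gr p)) (D j p)).comp (D j)‖
        ≤ δ ^ j * (CS ^ j * CG * 2 ^ j) := by
          gcongr
          exact (ContinuousLinearMap.opNorm_comp_le _ _).trans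
            (mul_le_mul (hd j _) (hD j) (norm_nonneg _) (by positivity))
      _ = CG * (δ * CS * 2) ^ j := by rw [mul_pow, mul_pow]; ring
      _ ≤ _ := by gcongr
  have hs : Summable fun j : ℕ => CG * (1 / 2 : ℝ) ^ j := summable_geometric_two.mul_left _
  have hs0 : Summable fun j => T j 0 := by
    refine Summable.of_norm_bounded (g := fun j : ℕ => max M 2 * (1 / 2 : ℝ) ^ j)
      (summable_geometric_two.mul_left _) fun j => ?_
    simp only [T]
    rw [norm_smul, norm_pow, Real.norm_of_nonneg hδ0.le, mul_comm]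
    gcongr
    exact hb j _
  change ContDiff ℝ 1 fun p => ∑' j, T j p
  rw [contDiff_one_iff_fderiv]
  refine ⟨differentiable_tsum hs (fun j p => ((hT j).differentiable one_ne_zero p).hasFDerivAt)
    hTd, ?_⟩
  rw [fderiv_tsum hs (fun j => (hT j).differentiable one_ne_zero) hTd hs0]
  exact continuous_tsum (fun j => (hT j).continuous_fderiv one_ne_zero) hs hTd

theorem rd_zero (δ w : ℝ) : rd δ (w, 0) = 0 := by
  simp [rd, Gr, Zr, Sq_iter_zero]

/-- coherent states of the register -/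
def Good (k : ℕ) (w : ℝ) (y : ℂ × ℂ) (u : ℂ) : Prop :=
  ∃ (w0 A A' : ℝ) (v : ℂ), 1 / 2 ≤ w0 ∧ w0 ≤ 1 ∧ 0 ≤ A ∧ 0 ≤ A' ∧ ‖v‖ = 1 ∧ w = w0 / 2 ^ k ∧
    y = Gam w0 (A * v) (A' * v ^ 2) ∧ u = v ^ (2 ^ (k + 1))

theorem Good.step {k : ℕ} {w : ℝ} {y : ℂ × ℂ} {u : ℂ} (h : Good k w y u) {l : ℝ} (hl : 0 ≤ l) :
    Good (k + 1) (w / 2) (l • y) (u ^ 2) := by
  obtain ⟨w0, A, A', v, h1, h2, h3, h4, h5, rfl, rfl, rfl⟩ := h
  refine ⟨w0, l * A, l * A', v, h1, h2, by positivity, by positivity, h5, by ring, ?_, ?_⟩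
  · ext <;> simp [Gam] <;> ring
  · rw [← pow_mul, ← pow_succ]

theorem Good.norm {k : ℕ} {w : ℝ} {y : ℂ × ℂ} {u : ℂ} (h : Good k w y u) : ‖u‖ = 1 := by
  obtain ⟨w0, A, A', v, h1, h2, h3, h4, h5, rfl, rfl, rfl⟩ := h
  rw [norm_pow, h5, one_pow]

theorem nsq_Gam (w A A' : ℝ) {v : ℂ} (hv : ‖v‖ = 1) :
    nsq (Gam w (A * v) (A' * v ^ 2)) =
      ((1 - rr w) ^ 2 + rr w ^ 2) * (rr w ^ 2 * A ^ 2 + (1 - rr w) ^ 2 * A' ^ 2) := by
  have h : n2 v = 1 := by rw [n2_eq, hv]; norm_num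
  simp only [nsq, n2, Gam, sq, mul_re, mul_im, add_re, add_im, sub_re, sub_im, ofReal_re,
    ofReal_im] at h ⊢
  linear_combination ((1 - rr w) ^ 2 + rr w ^ 2) *
    (rr w ^ 2 * A ^ 2 + (1 - rr w) ^ 2 * A' ^ 2 * (v.re * v.re + v.im * v.im + 1)) * h

theorem Zr_Gam (w A A' : ℝ) (v : ℂ) :
    Zr w (Gam w (A * v) (A' * v ^ 2)) =
      (((rr w * ((1 - rr w) ^ 2 + rr w ^ 2) * A) ^ 2 +
        (1 - rr w) * ((1 - rr w) ^ 2 + rr w ^ 2) * A' : ℝ) : ℂ) * v ^ 2 := by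
  simp only [Zr, Gam]
  push_cast
  ring

theorem Good.read {δ : ℝ} (hδ : 0 ≤ δ) {k : ℕ} {w : ℝ} {y : ℂ × ℂ} {u : ℂ} (h : Good k w y u) :
    ∃ ρ : ℝ, 0 ≤ ρ ∧ rd δ (w, y) = ρ * u ∧ (2 ≤ nsq y → nsq y ≤ 99 → δ ^ k ≤ ρ) := by
  obtain ⟨w0, A, A', v, h1, h2, h3, h4, h5, rfl, rfl, rfl⟩ := h
  set y := Gam w0 (A * v) (A' * v ^ 2) with hy
  have hc : ∀ x : ℝ, 0 ≤ psi x * ST (100 - nsq y) := fun x => mul_nonneg (psi_nonneg _) (STn _)
  have key : ∀ j : ℕ, ∃ ρ : ℝ, 0 ≤ ρ ∧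
      Sq^[j] (Gr (2 ^ j * (w0 / 2 ^ k), y)) = ρ * v ^ (2 ^ (k + 1)) ∧
        (j = k → 2 ≤ nsq y → nsq y ≤ 99 → 1 ≤ ρ) := by
    intro j
    by_cases hp : psi (2 ^ j * (w0 / 2 ^ k)) = 0
    · refine ⟨0, le_rfl, by simp [Gr, hp, Sq_iter_zero], ?_⟩
      rintro rfl
      rw [mul_div_cancel₀ _ (by positivity), psi_one h1 h2] at hp
      exact absurd hp one_ne_zero
    have hlo : 3 / 8 < 2 ^ j * (w0 / 2 ^ k) := not_le.1 fun h => hp (psi_lo h)
    have hhi : 2 ^ j * (w0 / 2 ^ k) < 5 / 4 := not_le.1 fun h => hp (psi_hi h)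
    rcases lt_trichotomy j k with hjk | rfl | hjk
    · obtain ⟨m, rfl⟩ := Nat.exists_eq_add_of_lt hjk
      have e : (2 : ℝ) ^ j * (w0 / 2 ^ (j + m + 1)) = w0 / 2 ^ (m + 1) := by
        rw [add_assoc, pow_add]; field_simp
      rw [e] at hlo hhi ⊢
      have hm : m = 0 := by
        by_contra hm
        obtain ⟨m', rfl⟩ := Nat.exists_eq_succ_of_ne_zero hm
        have : (1 : ℝ) ≤ 2 ^ m' := one_le_pow₀ (by norm_num)
        rw [lt_div_iff₀ (by positivity), pow_succ, pow_succ] at hlo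
        linarith
      subst hm
      simp only [zero_add, pow_one, add_zero] at hlo ⊢
      have r0 : rr w0 = 0 := rr0 (by linarith)
      have r1 : rr (w0 / 2) = 1 := rr1 (by linarith)
      have e2 : Gr (w0 / 2, y) = ((psi (w0 / 2) * ST (100 - nsq y) * A' ^ 2 : ℝ) : ℂ) * v ^ 4 := by
        simp only [Gr, Zr, r1]
        rw [hy]
        simp only [Gam, r0]
        push_cast
        ring
      obtain ⟨ρ, a1, a2, -⟩ := Sq_iter j (ρ := psi (w0 / 2) * ST (100 - nsq y) * A' ^ 2)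
        (mul_nonneg (hc _) (by positivity)) (v := v ^ 4) (by rw [norm_pow, h5, one_pow])
      refine ⟨ρ, a1, ?_, fun h => by omega⟩
      rw [e2, a2, ← pow_mul]
      congr 2
      ring
    · rw [mul_div_cancel₀ _ (by positivity)]
      have hr := STn (6 - 8 * w0)
      have hr' := STl (6 - 8 * w0)
      change 0 ≤ rr w0 at hr
      change rr w0 ≤ 1 at hr'
      set N := (1 - rr w0) ^ 2 + rr w0 ^ 2 with hN
      have hN0 : 1 / 2 ≤ N := by rw [hN]; nlinarith [sq_nonneg (rr w0 - 1 / 2)]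
      have hZ0 : 0 ≤ (1 - rr w0) * N * A' := by
        have : 0 ≤ 1 - rr w0 := by linarith
        positivity
      obtain ⟨ρ, a1, a2, a3⟩ := Sq_iter j (ρ := psi w0 * ST (100 - nsq y) *
        ((rr w0 * N * A) ^ 2 + (1 - rr w0) * N * A')) (mul_nonneg (hc _) (by positivity))
        (v := v ^ 2) (by rw [norm_pow, h5, one_pow])
      refine ⟨ρ, a1, ?_, fun _ b1 b2 => a3 ?_⟩
      · rw [pow_succ', pow_mul, ← a2]
        congr 1
        simp only [Gr]
        rw [hy, Zr_Gam, ← hy, ← hN]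
        push_cast
        ring
      · rw [psi_one h1 h2, ST1 (by linarith), one_mul, one_mul]
        rw [hy, nsq_Gam _ _ _ h5, ← hN] at b1
        have e : (rr w0 * N * A) ^ 2 + ((1 - rr w0) * N * A') ^ 2 =
          N * (N * (rr w0 ^ 2 * A ^ 2 + (1 - rr w0) ^ 2 * A' ^ 2)) := by ring
        have e1 : 1 ≤ (rr w0 * N * A) ^ 2 + ((1 - rr w0) * N * A') ^ 2 := by
          rw [e]; nlinarith
        by_contra hcon
        push Not at hcon
        nlinarith [sq_nonneg (rr w0 * N * A)]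
    · obtain ⟨m, rfl⟩ := Nat.exists_eq_add_of_lt hjk
      have e : (2 : ℝ) ^ (k + m + 1) * (w0 / 2 ^ k) = 2 ^ (m + 1) * w0 := by
        rw [add_assoc, pow_add]; field_simp
      rw [e] at hlo hhi ⊢
      have hm : m = 0 := by
        by_contra hm
        obtain ⟨m', rfl⟩ := Nat.exists_eq_succ_of_ne_zero hm
        have : (1 : ℝ) ≤ 2 ^ m' := one_le_pow₀ (by norm_num)
        rw [pow_succ, pow_succ] at hhi
        nlinarith
      subst hm
      simp only [zero_add, pow_one, add_zero] at hhi ⊢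
      have r0 : rr (2 * w0) = 0 := rr0 (by linarith)
      have r1 : rr w0 = 1 := rr1 (by linarith)
      have e2 : Gr (2 * w0, y) = ((psi (2 * w0) * ST (100 - nsq y) * A : ℝ) : ℂ) * v := by
        simp only [Gr, Zr, r0]
        rw [hy]
        simp only [Gam, r1]
        push_cast
        ring
      obtain ⟨ρ, a1, a2, -⟩ := Sq_iter (k + 1) (ρ := psi (2 * w0) * ST (100 - nsq y) * A)
        (mul_nonneg (hc _) h3) h5
      exact ⟨ρ, a1, by rw [e2, a2], fun h => by omega⟩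
  choose ρ hρ0 hρ1 hρ2 using key
  refine ⟨∑ j ∈ Finset.range (k + 2), δ ^ j * ρ j,
    Finset.sum_nonneg fun j _ => mul_nonneg (by positivity) (hρ0 j), ?_, fun b1 b2 => ?_⟩
  · rw [rd, tsum_eq_sum (s := Finset.range (k + 2))]
    · push_cast
      rw [Finset.sum_mul]
      refine Finset.sum_congr rfl fun j _ => ?_
      rw [hρ1, real_smul]
      push_cast
      ring
    · intro j hj
      obtain ⟨m, rfl⟩ := Nat.exists_eq_add_of_le (not_lt.1 (mt Finset.mem_range.2 hj))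
      have : psi (2 ^ (k + 2 + m) * (w0 / 2 ^ k)) = 0 := by
        apply psi_hi
        have e : (2 : ℝ) ^ (k + 2 + m) * (w0 / 2 ^ k) = 4 * 2 ^ m * w0 := by
          rw [pow_add, pow_add]; field_simp; norm_num
        have : (1 : ℝ) ≤ 2 ^ m := one_le_pow₀ (by norm_num)
        rw [e]; nlinarith
      simp [Gr, this, Sq_iter_zero]
  · calc δ ^ k ≤ δ ^ k * ρ k := le_mul_of_one_le_right (by positivity) (hρ2 k rfl b1 b2)
      _ ≤ _ := Finset.single_le_sum (f := fun j => δ ^ j * ρ j)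
          (fun j _ => mul_nonneg (by positivity) (hρ0 j)) (Finset.mem_range.2 (by omega))

end Crest.Agent.R123
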