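import Mathlib
import Crest.Agent.R123.Read

set_option autoImplicit false

open Complex Real
open scoped Topology

namespace Crest.Agent.R123

/-- growth rate squared (halved) -/
noncomputable def G0 (δ : ℝ) : ℝ := 1 / δ ^ 32

/-- growth factor -/
noncomputable def lam (δ : ℝ) (y : ℂ × ℂ) : ℝ := √(2 * G0 δ / (1 + 2 * G0 δ * nsq y / 64))

/-- saturated growth -/
noncomputable def Grow (δ : ℝ) (y : ℂ × ℂ) : ℂ × ℂ := lam δ y • y

/-- free clock speed -/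
noncomputable def om (x : ℝ) : ℝ := (1 - ST (x ^ 2 - 1)) * (x ^ 2 / 4) + ST (x ^ 2 - 1)

/-- push by the sphere coordinate -/
noncomputable def kap (s : ℂ × ℝ) : ℝ := ST (9 - 25 * s.2 ^ 2) * (n2 (s.1 - 1) / 4)

/-- clock step -/
noncomputable def step (x : ℝ) (s : ℂ × ℝ) (y : ℂ × ℂ) : ℝ :=
  om x + (1 - om x) * (1 - (1 - ST (nsq y - 4)) * (1 - kap s))

/-- reading zone -/
noncomputable def bb (x : ℝ) : ℝ := ST (x - 2) * ST (5 - x)

/-- writing zone -/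
noncomputable def chi (x : ℝ) : ℝ := ST (4 * x - 23) * ST (29 - 4 * x)

/-- writing cutoff near the north pole -/
noncomputable def th (h : ℝ) : ℝ := ST ((92 - 100 * h) / 3)

/-- the translation -/
noncomputable def beta (δ x w : ℝ) (y : ℂ × ℂ) : ℂ := ((2 / δ ^ 17 * bb x : ℝ) : ℂ) * rd δ (w, y)

/-- auxiliary quantity -/
def PP (s : ℂ × ℝ) (β : ℂ) : ℝ :=
  1 + s.2 + 2 * (β.re * s.1.re + β.im * s.1.im) + n2 β * (1 - s.2)

/-- `z ↦ (z + β)²` in the coordinates of the round sphere -/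
noncomputable def sph (s : ℂ × ℝ) (β : ℂ) : ℂ × ℝ :=
  (((2 / (PP s β ^ 2 + (1 - s.2) ^ 2) : ℝ) : ℂ) * (s.1 + β * ((1 - s.2 : ℝ) : ℂ)) ^ 2,
    (PP s β ^ 2 - (1 - s.2) ^ 2) / (PP s β ^ 2 + (1 - s.2) ^ 2))

/-- new age variable -/
noncomputable def wN (x w : ℝ) : ℝ := chi x * (4 - x / 2) + (1 - chi x) * (w / 2)

/-- new register -/
noncomputable def yN (δ x : ℝ) (s : ℂ × ℝ) (y : ℂ × ℂ) : ℂ × ℂ :=
  (chi x * th s.2) • Gam (4 - x / 2) s.1 (s.1 ^ 2) + (1 - chi x) • Grow δ y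

/-- stereographic coordinate -/
noncomputable def zz (s : ℂ × ℝ) : ℂ := s.1 / ((1 - s.2 : ℝ) : ℂ)

section basic

variable {δ : ℝ}

theorem G0_ge (h0 : 0 < δ) (h1 : δ ≤ 1 / 2) : 12800 ≤ G0 δ := by
  rw [G0, le_div_iff₀ (by positivity)]
  have : δ ^ 32 ≤ (1 / 2) ^ 32 := by gcongr
  norm_num at this ⊢
  linarith

theorem lam_pos (h0 : 0 < δ) (y : ℂ × ℂ) : 0 < lam δ y := by
  have := nsq_nonneg y
  unfold lam G0
  positivity

theorem nsq_Grow (h0 : 0 < δ) (y : ℂ × ℂ) :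
    nsq (Grow δ y) = 2 * G0 δ * nsq y / (1 + 2 * G0 δ * nsq y / 64) := by
  have := nsq_nonneg y
  rw [Grow, nsq_smul, lam, sq_sqrt (by unfold G0; positivity)]
  ring

theorem nsq_Grow_lt (h0 : 0 < δ) (y : ℂ × ℂ) : nsq (Grow δ y) < 64 := by
  have := nsq_nonneg y
  have : 0 < G0 δ := by unfold G0; positivity
  rw [nsq_Grow h0, div_lt_iff₀ (by positivity)]
  linarith

theorem le_nsq_Grow (h0 : 0 < δ) (y : ℂ × ℂ) : min (G0 δ * nsq y) 32 ≤ nsq (Grow δ y) := by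
  have := nsq_nonneg y
  have : 0 < G0 δ := by unfold G0; positivity
  have h3 : 0 ≤ G0 δ * nsq y := by positivity
  rw [nsq_Grow h0, le_div_iff₀ (by positivity), mul_assoc]
  rcases le_total (G0 δ * nsq y) 32 with h | h
  · rw [min_eq_left h]; nlinarith
  · rw [min_eq_right h]; nlinarith

theorem Grow_zero : Grow δ 0 = 0 := by simp [Grow]

theorem min_le_Grow (h0 : 0 < δ) (h1 : δ ≤ 1 / 2) {a : ℝ} {y : ℂ × ℂ}
    (h : min a 32 ≤ nsq y) : min (G0 δ * a) 32 ≤ nsq (Grow δ y) := by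
  refine le_trans ?_ (le_nsq_Grow h0 y)
  have := G0_ge h0 h1
  rcases min_le_iff.1 h with h | h
  · exact min_le_min_right _ (by gcongr)
  · exact le_min ((min_le_right _ _).trans (by nlinarith)) (min_le_right _ _)

theorem om_eq {x : ℝ} (h : x ^ 2 ≤ 1) : om x = x ^ 2 / 4 := by
  rw [om, ST0 (by linarith)]; ring

theorem om_one {x : ℝ} (h : 2 ≤ x ^ 2) : om x = 1 := by
  rw [om, ST1 (by linarith)]; ring

theorem om_nonneg (x : ℝ) : 0 ≤ om x := by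
  have := STn (x ^ 2 - 1)
  have : 0 ≤ 1 - ST (x ^ 2 - 1) := by linarith [STl (x ^ 2 - 1)]
  unfold om; positivity

theorem om_le (x : ℝ) : om x ≤ 1 := by
  rcases le_total 2 (x ^ 2) with h | h
  · rw [om_one h]
  · have := STn (x ^ 2 - 1)
    have := STl (x ^ 2 - 1)
    unfold om; nlinarith

theorem om_ge {x : ℝ} (h : 1 ≤ x ^ 2) : 1 / 4 ≤ om x := by
  have := STn (x ^ 2 - 1)
  have := STl (x ^ 2 - 1)
  unfold om; nlinarith

theorem kap_nonneg (s : ℂ × ℝ) : 0 ≤ kap s := by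
  have := STn (9 - 25 * s.2 ^ 2)
  have := n2_nonneg (s.1 - 1)
  unfold kap; positivity

theorem kap_le {s : ℂ × ℝ} (hs : n2 s.1 + s.2 ^ 2 = 1) : kap s ≤ 1 := by
  have h1 := STn (9 - 25 * s.2 ^ 2)
  have h2 := STl (9 - 25 * s.2 ^ 2)
  have h3 := n2_nonneg (s.1 - 1)
  have h4 : n2 (s.1 - 1) ≤ 4 := by
    simp only [n2, sub_re, one_re, sub_im, one_im, sub_zero] at hs ⊢
    nlinarith [sq_nonneg (s.1.re + 1), sq_nonneg s.2, sq_nonneg s.1.im]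
  unfold kap; nlinarith

theorem kap_zero {s : ℂ × ℝ} (h : 9 ≤ 25 * s.2 ^ 2) : kap s = 0 := by
  rw [kap, ST0 (by linarith), zero_mul]

theorem push_mem {s : ℂ × ℝ} (hs : n2 s.1 + s.2 ^ 2 = 1) (y : ℂ × ℂ) :
    kap s ≤ 1 - (1 - ST (nsq y - 4)) * (1 - kap s) ∧
      1 - (1 - ST (nsq y - 4)) * (1 - kap s) ≤ 1 := by
  have := kap_nonneg s
  have := kap_le hs
  have := STn (nsq y - 4)
  have := STl (nsq y - 4)
  constructor <;> nlinarith

theorem om_le_step {s : ℂ × ℝ} (hs : n2 s.1 + s.2 ^ 2 = 1) (x : ℝ) (y : ℂ × ℂ) :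
    om x ≤ step x s y := by
  have := push_mem hs y
  have := kap_nonneg s
  have := om_le x
  unfold step; nlinarith

theorem step_nonneg {s : ℂ × ℝ} (hs : n2 s.1 + s.2 ^ 2 = 1) (x : ℝ) (y : ℂ × ℂ) :
    0 ≤ step x s y := (om_nonneg x).trans (om_le_step hs x y)

theorem step_le {s : ℂ × ℝ} (hs : n2 s.1 + s.2 ^ 2 = 1) (x : ℝ) (y : ℂ × ℂ) :
    step x s y ≤ 1 := by
  have := push_mem hs y
  have := om_le x
  unfold step; nlinarith

theorem step_one {x : ℝ} (h : 2 ≤ x ^ 2) (s : ℂ × ℝ) (y : ℂ × ℂ) : step x s y = 1 := by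
  rw [step, om_one h]; ring

theorem step_one' (x : ℝ) (s : ℂ × ℝ) {y : ℂ × ℂ} (h : 5 ≤ nsq y) : step x s y = 1 := by
  rw [step, ST1 (by linarith)]; ring

theorem step_stuck {x : ℝ} (hx : x ≤ 0) {s : ℂ × ℝ} (hs : 9 ≤ 25 * s.2 ^ 2) {y : ℂ × ℂ}
    (h : nsq y ≤ 4) : x + step x s y ≤ 0 := by
  have : step x s y = om x := by rw [step, ST0 (by linarith), kap_zero hs]; ring
  rw [this]
  rcases le_total x (-1) with h1 | h1
  · linarith [om_le x]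
  · rw [om_eq (by nlinarith)]; nlinarith

theorem kap_le_step {s : ℂ × ℝ} (hs : n2 s.1 + s.2 ^ 2 = 1) (x : ℝ) (y : ℂ × ℂ) :
    kap s ≤ step x s y := by
  have := push_mem hs y
  have := kap_le hs
  have := om_le x
  have := om_nonneg x
  unfold step; nlinarith

theorem bb_nonneg (x : ℝ) : 0 ≤ bb x := mul_nonneg (STn _) (STn _)
theorem bb_lo {x : ℝ} (h : x ≤ 2) : bb x = 0 := by rw [bb, ST0 (by linarith), zero_mul]
theorem bb_hi {x : ℝ} (h : 5 ≤ x) : bb x = 0 := by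
  rw [bb, ST0 (x := 5 - x) (by linarith), mul_zero]
theorem bb_one {x : ℝ} (h : 3 ≤ x) (h' : x ≤ 4) : bb x = 1 := by
  rw [bb, ST1 (by linarith), ST1 (by linarith), mul_one]

theorem chi_nonneg (x : ℝ) : 0 ≤ chi x := mul_nonneg (STn _) (STn _)
theorem chi_le (x : ℝ) : chi x ≤ 1 := mul_le_one₀ (STl _) (STn _) (STl _)
theorem chi_lo {x : ℝ} (h : x ≤ 23 / 4) : chi x = 0 := by rw [chi, ST0 (by linarith), zero_mul]
theorem chi_hi {x : ℝ} (h : 29 / 4 ≤ x) : chi x = 0 := by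
  rw [chi, ST0 (x := 29 - 4 * x) (by linarith), mul_zero]
theorem chi_one {x : ℝ} (h : 6 ≤ x) (h' : x ≤ 7) : chi x = 1 := by
  rw [chi, ST1 (by linarith), ST1 (by linarith), mul_one]

theorem beta_zero {x : ℝ} (h : bb x = 0) (w : ℝ) (y : ℂ × ℂ) : beta δ x w y = 0 := by
  simp [beta, h]

theorem wN_zero {x : ℝ} (h : chi x = 0) (w : ℝ) : wN x w = w / 2 := by simp [wN, h]

theorem yN_zero {x : ℝ} (h : chi x = 0) (s : ℂ × ℝ) (y : ℂ × ℂ) : yN δ x s y = Grow δ y := by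
  simp [yN, h]

theorem PQ {s : ℂ × ℝ} (hs : n2 s.1 + s.2 ^ 2 = 1) (β : ℂ) :
    n2 (s.1 + β * ((1 - s.2 : ℝ) : ℂ)) = PP s β * (1 - s.2) := by
  simp only [n2, PP, add_re, add_im, mul_re, mul_im, ofReal_re, ofReal_im] at hs ⊢
  linear_combination hs

theorem den_pos {s : ℂ × ℝ} (hs : n2 s.1 + s.2 ^ 2 = 1) (β : ℂ) :
    0 < PP s β ^ 2 + (1 - s.2) ^ 2 := by
  by_cases h : s.2 = 1
  · have h1 : n2 s.1 = 0 := by rw [h] at hs; linarith
    have h2 : s.1 = 0 := by rw [n2_eq] at h1; simpa using h1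
    simp [PP, h, h2]
  · have : 1 - s.2 ≠ 0 := sub_ne_zero.2 (Ne.symm h)
    positivity

theorem sph_mem {s : ℂ × ℝ} (hs : n2 s.1 + s.2 ^ 2 = 1) (β : ℂ) :
    n2 (sph s β).1 + (sph s β).2 ^ 2 = 1 := by
  have h := den_pos hs β
  have h1 := PQ hs β
  rw [n2_eq] at h1
  simp only [sph]
  rw [n2_eq, norm_mul, norm_pow, h1, Complex.norm_real, Real.norm_of_nonneg (by positivity)]
  field_simp
  ring

theorem sph_z {s : ℂ × ℝ} (hs : n2 s.1 + s.2 ^ 2 = 1) (h : s.2 ≠ 1) (β : ℂ) :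
    (sph s β).2 ≠ 1 ∧ zz (sph s β) = (zz s + β) ^ 2 := by
  have hd := den_pos hs β
  have hq : 1 - s.2 ≠ 0 := sub_ne_zero.2 (Ne.symm h)
  have e : 1 - (sph s β).2 = 2 * (1 - s.2) ^ 2 / (PP s β ^ 2 + (1 - s.2) ^ 2) := by
    simp only [sph]; field_simp; ring
  refine ⟨fun h1 => ?_, ?_⟩
  · rw [h1, sub_self] at e
    exact (div_pos (by positivity) hd).ne e
  · rw [zz, e, zz]
    simp only [sph]
    have hq' : ((1 - s.2 : ℝ) : ℂ) ≠ 0 := ofReal_ne_zero.2 hq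
    have hd' : ((PP s β ^ 2 + (1 - s.2) ^ 2 : ℝ) : ℂ) ≠ 0 := ofReal_ne_zero.2 hd.ne'
    rw [ofReal_div, ofReal_div, ofReal_mul, ofReal_pow (1 - s.2)]
    generalize ((PP s β ^ 2 + (1 - s.2) ^ 2 : ℝ) : ℂ) = D at hd' ⊢
    generalize ((1 - s.2 : ℝ) : ℂ) = Q at hq' ⊢
    push_cast
    field_simp

theorem sph_zero (s : ℂ × ℝ) :
    sph s 0 = (((1 / (1 + s.2 ^ 2) : ℝ) : ℂ) * s.1 ^ 2, 2 * s.2 / (1 + s.2 ^ 2)) := by
  have e : PP s 0 = 1 + s.2 := by simp [PP, n2]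
  have e2 : (1 + s.2) ^ 2 + (1 - s.2) ^ 2 = 2 * (1 + s.2 ^ 2) := by ring
  have hp : 0 < 1 + s.2 ^ 2 := by positivity
  simp only [sph, e, e2, zero_mul, add_zero]
  refine Prod.ext ?_ ?_
  · simp only
    congr 2
    field_simp
  · simp only
    field_simp
    ring

theorem one_sub_h {s : ℂ × ℝ} (hs : n2 s.1 + s.2 ^ 2 = 1) (h : s.2 ≠ 1) :
    (1 - s.2) * (1 + ‖zz s‖ ^ 2) = 2 := by
  have hq : 1 - s.2 ≠ 0 := sub_ne_zero.2 (Ne.symm h)
  rw [zz, norm_div, div_pow, Complex.norm_real, Real.norm_eq_abs, sq_abs, ← n2_eq]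
  field_simp
  linear_combination hs

theorem xi_eq {s : ℂ × ℝ} (h : s.2 ≠ 1) : s.1 = ((1 - s.2 : ℝ) : ℂ) * zz s := by
  have hq : ((1 - s.2 : ℝ) : ℂ) ≠ 0 := ofReal_ne_zero.2 (sub_ne_zero.2 (Ne.symm h))
  rw [zz]; field_simp

theorem h_sq_mono {h : ℝ} (h1 : h ^ 2 ≤ 1) : h ^ 2 ≤ (2 * h / (1 + h ^ 2)) ^ 2 := by
  rw [div_pow, le_div_iff₀ (by positivity)]
  have : (1 + h ^ 2) ^ 2 ≤ 4 := by nlinarith [sq_nonneg h]
  nlinarith [sq_nonneg h]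

end basic

end Crest.Agent.R123
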