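import Mathlib
import Crest.Agent.R123.Defs

set_option autoImplicit false

open Complex Real Filter
open scoped Topology

namespace Crest.Agent.R123

theorem num1 {p A r : ℝ} (hp0 : 0 ≤ p) (hp1 : p ≤ 1) (hr : 0 ≤ r) (A0 : 2 / 5 * r ≤ A)
    (A1 : A ≤ 1) :
    r ^ 4 / 160 ≤ ((1 - p) ^ 2 + p ^ 2) * (p ^ 2 * A ^ 2 + (1 - p) ^ 2 * (A ^ 2) ^ 2) ∧
      ((1 - p) ^ 2 + p ^ 2) * (p ^ 2 * A ^ 2 + (1 - p) ^ 2 * (A ^ 2) ^ 2) ≤ 1 := by
  have hA : 0 ≤ A := le_trans (by positivity) A0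
  have N0 : 1 / 2 ≤ (1 - p) ^ 2 + p ^ 2 := by nlinarith [sq_nonneg (p - 1 / 2)]
  have N1 : (1 - p) ^ 2 + p ^ 2 ≤ 1 := by nlinarith
  have A2 : A ^ 2 ≤ 1 := by nlinarith
  have A4 : (A ^ 2) ^ 2 ≤ A ^ 2 := by nlinarith [sq_nonneg A]
  have l1 : ((1 - p) ^ 2 + p ^ 2) * (A ^ 2) ^ 2 ≤ p ^ 2 * A ^ 2 + (1 - p) ^ 2 * (A ^ 2) ^ 2 := by
    nlinarith [sq_nonneg p]
  have l2 : p ^ 2 * A ^ 2 + (1 - p) ^ 2 * (A ^ 2) ^ 2 ≤ 1 := by
    nlinarith [sq_nonneg p, sq_nonneg (1 - p)]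
  have l3 : (2 / 5 * r) ^ 4 ≤ (A ^ 2) ^ 2 := by
    rw [← pow_mul]; gcongr
  have l4 : 1 / 2 * (A ^ 2) ^ 2 ≤ p ^ 2 * A ^ 2 + (1 - p) ^ 2 * (A ^ 2) ^ 2 := by
    nlinarith [sq_nonneg (A ^ 2)]
  have l5 : 1 / 2 * (1 / 2 * (A ^ 2) ^ 2) ≤
      ((1 - p) ^ 2 + p ^ 2) * (p ^ 2 * A ^ 2 + (1 - p) ^ 2 * (A ^ 2) ^ 2) := by gcongr
  refine ⟨?_, mul_le_one₀ N1 (by positivity) l2⟩
  have : 0 ≤ r ^ 4 := by positivity
  nlinarith

theorem num2 {χ r a b : ℝ} (c0 : 0 ≤ χ) (c1 : χ ≤ 1) (ha : 2 / 17 * r ^ 2 ≤ a)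
    (hb : (2 / 5 * r) ^ 2 ≤ b) : r ^ 4 / 160 ≤ (χ * a + (1 - χ) * b) ^ 2 := by
  have h1 : 2 / 17 * r ^ 2 ≤ b := by nlinarith [sq_nonneg r]
  have l5 : 2 / 17 * r ^ 2 ≤ χ * a + (1 - χ) * b := by nlinarith
  have l6 : (2 / 17 * r ^ 2) ^ 2 ≤ (χ * a + (1 - χ) * b) ^ 2 := by gcongr
  have : 0 ≤ r ^ 4 := by positivity
  nlinarith

theorem num3 {Q r : ℝ} (hQ : 0 ≤ Q) (hr : 0 ≤ r) (h : Q * (1 + r ^ 2) = 2) :
    Q * r ≤ 1 ∧ (r ≤ 2 → 2 / 5 ≤ Q) ∧ (r ≤ 4 → 2 / 17 ≤ Q) := by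
  refine ⟨by nlinarith [sq_nonneg (r - 1)], fun h2 => ?_, fun h2 => ?_⟩
  · have : r ^ 2 ≤ 4 := by nlinarith
    nlinarith
  · have : r ^ 2 ≤ 16 := by nlinarith
    nlinarith

theorem num4 {χ x : ℝ} (c0 : 0 ≤ χ) (c1 : χ ≤ 1) (h1 : 6 < x) (h2 : x + 1 < 29 / 4) :
    3 / 4 ≤ 2 * (χ * (4 - (x + 1) / 2) + (1 - χ) * ((4 - x / 2) / 2)) ∧
      2 * (χ * (4 - (x + 1) / 2) + (1 - χ) * ((4 - x / 2) / 2)) ≤ 1 := by
  constructor <;> nlinarith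

/-- an orbit of the model, in coordinates -/
structure Orb (δ : ℝ) where
  x : ℕ → ℝ
  s : ℕ → ℂ × ℝ
  w : ℕ → ℝ
  y : ℕ → ℂ × ℂ
  hδ0 : 0 < δ
  hδ1 : δ ≤ 1 / 2
  hx0 : ∀ k, -10 < x k
  hx1 : ∀ k, x k ≤ 10
  hs : ∀ k, n2 (s k).1 + (s k).2 ^ 2 = 1
  xs : ∀ k, x k + step (x k) (s k) (y k) ≤ 10 → x (k + 1) = x k + step (x k) (s k) (y k)
  xs' : ∀ k, 10 < x k + step (x k) (s k) (y k) → x (k + 1) = x k + step (x k) (s k) (y k) - 20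
  ss : ∀ k, s (k + 1) = sph (s k) (beta δ (x k) (w k) (y k))
  ws : ∀ k, w (k + 1) = wN (x k) (w k)
  ys : ∀ k, y (k + 1) = yN δ (x k) (s k) (y k)

namespace Orb

variable {δ : ℝ} (O : Orb δ)

/-- the clock step at time `k` -/
noncomputable def st (k : ℕ) : ℝ := step (O.x k) (O.s k) (O.y k)

theorem st_nonneg (k : ℕ) : 0 ≤ O.st k := step_nonneg (O.hs k) _ _
theorem st_le (k : ℕ) : O.st k ≤ 1 := step_le (O.hs k) _ _

theorem x_succ {k : ℕ} (h : O.x k ≤ 9) : O.x (k + 1) = O.x k + O.st k :=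
  O.xs k (by linarith [O.st_le k, show O.st k = step (O.x k) (O.s k) (O.y k) from rfl])

theorem x_one {k : ℕ} (h : O.x k ≤ 9) (h' : 2 ≤ O.x k) : O.x (k + 1) = O.x k + 1 := by
  rw [O.x_succ h, st, step_one (by nlinarith)]

theorem x_wrap {k : ℕ} (h : 9 < O.x k) : O.x (k + 1) = O.x k - 19 := by
  have e : step (O.x k) (O.s k) (O.y k) = 1 := step_one (by nlinarith) _ _
  rw [O.xs' k (by rw [e]; linarith), e]; ring

theorem tendsto_of_bdd {n : ℕ} (h : ∀ k, n ≤ k → O.x k ≤ 9) : Tendsto O.st atTop (𝓝 0) := by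
  have hsum : ∀ m, ∑ i ∈ Finset.range m, O.st (i + n) = O.x (m + n) - O.x n := by
    intro m
    induction m with
    | zero => simp
    | succ m ih =>
      rw [Finset.sum_range_succ, ih, show m + 1 + n = m + n + 1 by ring,
        O.x_succ (h _ (by omega))]
      ring
  have : Summable fun i => O.st (i + n) :=
    summable_of_sum_range_le (c := 20) (fun i => O.st_nonneg _) fun m => by
      rw [hsum]; linarith [O.hx0 n, O.hx1 (m + n)]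
  exact (tendsto_add_atTop_iff_nat n).1 this.tendsto_atTop_zero

theorem pass (hn : ¬ Tendsto O.st atTop (𝓝 0)) {n : ℕ} {c : ℝ} (hc : c ≤ 9) (h : O.x n ≤ c) :
    ∃ m, n ≤ m ∧ (∀ i, n ≤ i → i ≤ m → O.x i ≤ c) ∧ c < O.x (m + 1) ∧ O.x (m + 1) ≤ c + 1 := by
  classical
  have hex : ∃ t, c < O.x (n + t + 1) := by
    by_contra hcon
    push Not at hcon
    refine hn (O.tendsto_of_bdd (n := n + 1) fun k hk => ?_)
    obtain ⟨t, rfl⟩ : ∃ t, k = n + t + 1 := ⟨k - (n + 1), by omega⟩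
    exact (hcon t).trans hc
  have hall : ∀ i, n ≤ i → i ≤ n + Nat.find hex → O.x i ≤ c := by
    intro i h1 h2
    rcases h1.eq_or_lt with rfl | h1
    · exact h
    · obtain ⟨t, rfl⟩ : ∃ t, i = n + t + 1 := ⟨i - (n + 1), by omega⟩
      exact not_lt.1 (Nat.find_min hex (by omega))
  refine ⟨n + Nat.find hex, by omega, hall, Nat.find_spec hex, ?_⟩
  have := hall (n + Nat.find hex) (by omega) le_rfl
  rw [O.x_succ (this.trans hc)]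
  linarith [O.st_le (n + Nat.find hex)]

theorem exists_W (hn : ¬ Tendsto O.st atTop (𝓝 0)) : ∃ j, 6 < O.x j ∧ O.x j ≤ 7 := by
  have : ∃ n, O.x n ≤ 6 := by
    by_contra hcon
    push Not at hcon
    have h9 : ∀ k, O.x k ≤ 9 := fun k => not_lt.1 fun h => by
      have := O.x_wrap h
      linarith [hcon (k + 1), O.hx1 k]
    exact hn (O.tendsto_of_bdd (n := 0) fun k _ => h9 k)
  obtain ⟨n, h⟩ := this
  obtain ⟨m, -, -, h1, h2⟩ := O.pass hn (by norm_num) h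
  exact ⟨m + 1, h1, by linarith⟩

theorem h_sq_le (k : ℕ) : (O.s k).2 ^ 2 ≤ 1 := by linarith [O.hs k, n2_nonneg (O.s k).1]

theorem h_succ {k : ℕ} (h : bb (O.x k) = 0) :
    (O.s (k + 1)).2 = 2 * (O.s k).2 / (1 + (O.s k).2 ^ 2) := by
  rw [O.ss, beta_zero h, sph_zero]

theorem xi_succ {k : ℕ} (h : bb (O.x k) = 0) :
    (O.s (k + 1)).1 = ((1 / (1 + (O.s k).2 ^ 2) : ℝ) : ℂ) * (O.s k).1 ^ 2 := by
  rw [O.ss, beta_zero h, sph_zero]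

theorem h_mono {k : ℕ} (h : bb (O.x k) = 0) : (O.s k).2 ^ 2 ≤ (O.s (k + 1)).2 ^ 2 := by
  rw [O.h_succ h]; exact h_sq_mono (O.h_sq_le k)

theorem dead {n : ℕ} (hy : O.y n = 0) (hh : 9 ≤ 25 * (O.s n).2 ^ 2) (hx : O.x n ≤ 0) :
    Tendsto O.st atTop (𝓝 0) := by
  have : ∀ t, O.y (n + t) = 0 ∧ 9 ≤ 25 * (O.s (n + t)).2 ^ 2 ∧ O.x (n + t) ≤ 0 := by
    intro t
    induction t with
    | zero => exact ⟨hy, hh, hx⟩
    | succ t ih =>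
      obtain ⟨h1, h2, h3⟩ := ih
      refine ⟨?_, ?_, ?_⟩
      · rw [← add_assoc, O.ys, yN_zero (chi_lo (by linarith)), h1, Grow_zero]
      · rw [← add_assoc]
        linarith [O.h_mono (k := n + t) (bb_lo (by linarith))]
      · rw [← add_assoc, O.x_succ (by linarith)]
        exact step_stuck h3 h2 (by rw [h1]; simp [nsq, n2])
  refine O.tendsto_of_bdd (n := n) fun k hk => ?_
  obtain ⟨t, rfl⟩ := Nat.exists_eq_add_of_le hk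
  linarith [(this t).2.2]

theorem W_times {j : ℕ} (h1 : 6 < O.x j) (h2 : O.x j ≤ 7) :
    O.x (j + 1) = O.x j + 1 ∧ O.x (j + 2) = O.x j + 2 ∧ O.x (j + 3) = O.x j + 3 ∧
      O.x (j + 4) = O.x j - 16 := by
  have a1 : O.x (j + 1) = O.x j + 1 := O.x_one (by linarith) (by linarith)
  have a2 : O.x (j + 2) = O.x (j + 1) + 1 := O.x_one (by linarith) (by linarith)
  have a3 : O.x (j + 3) = O.x (j + 2) + 1 := O.x_one (by linarith) (by linarith)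
  have a4 : O.x (j + 4) = O.x (j + 3) - 19 := O.x_wrap (by linarith)
  exact ⟨a1, by linarith, by linarith, by linarith⟩

theorem dead_W {j : ℕ} (h1 : 6 < O.x j) (h2 : O.x j ≤ 7)
    (h : (O.s j).1 = 0 ∨ 23 / 25 ≤ (O.s j).2) : Tendsto O.st atTop (𝓝 0) := by
  obtain ⟨a1, a2, a3, a4⟩ := O.W_times h1 h2
  have b0 : bb (O.x j) = 0 := bb_hi (by linarith)
  have b1 : bb (O.x (j + 1)) = 0 := bb_hi (by linarith)
  have b2 : bb (O.x (j + 2)) = 0 := bb_hi (by linarith)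
  have b3 : bb (O.x (j + 3)) = 0 := bb_hi (by linarith)
  have hz : ∀ (x : ℝ) (s : ℂ × ℝ), (s.1 = 0 ∨ 23 / 25 ≤ s.2) →
      (chi x * th s.2) • Gam (4 - x / 2) s.1 (s.1 ^ 2) = 0 := by
    rintro x s (h | h)
    · simp [h, Gam]
    · rw [th, ST0 (by linarith)]; simp
  have h' : (O.s (j + 1)).1 = 0 ∨ 23 / 25 ≤ (O.s (j + 1)).2 := by
    rcases h with h | h
    · left; rw [O.xi_succ b0, h]; simp
    · right
      rw [O.h_succ b0, le_div_iff₀ (by positivity)]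
      nlinarith [O.h_sq_le j]
  have y1 : O.y (j + 1) = 0 := by
    rw [O.ys, yN, hz _ _ h, chi_one h1.le h2]; simp
  have y2 : O.y (j + 2) = 0 := by
    rw [O.ys, yN, hz _ _ h', y1, Grow_zero]; simp
  have y3 : O.y (j + 3) = 0 := by
    rw [O.ys, yN_zero (chi_hi (by linarith)), y2, Grow_zero]
  have y4 : O.y (j + 4) = 0 := by
    rw [O.ys, yN_zero (chi_hi (by linarith)), y3, Grow_zero]
  have g0 : 9 ≤ 25 * (O.s j).2 ^ 2 := by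
    rcases h with h | h
    · have := O.hs j
      rw [h, show n2 0 = 0 by simp [n2]] at this
      linarith
    · nlinarith
  refine O.dead y4 ?_ (by linarith)
  linarith [O.h_mono b0, O.h_mono b1, O.h_mono b2, O.h_mono b3]

theorem fin_succ {k : ℕ} (h : (O.s k).2 ≠ 1) : (O.s (k + 1)).2 ≠ 1 := by
  rw [O.ss]; exact (sph_z (O.hs k) h _).1

theorem z_succ {k : ℕ} (h : (O.s k).2 ≠ 1) :
    zz (O.s (k + 1)) = (zz (O.s k) + beta δ (O.x k) (O.w k) (O.y k)) ^ 2 := by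
  rw [O.ss]; exact (sph_z (O.hs k) h _).2

theorem z_sq {k : ℕ} (h : (O.s k).2 ≠ 1) (hb : bb (O.x k) = 0) :
    zz (O.s (k + 1)) = zz (O.s k) ^ 2 := by
  rw [O.z_succ h, beta_zero hb, add_zero]

theorem fin_all {j : ℕ} (h : (O.s j).2 ≠ 1) (t : ℕ) : (O.s (j + t)).2 ≠ 1 := by
  induction t with
  | zero => exact h
  | succ t ih => exact O.fin_succ ih

theorem coh_step {i k : ℕ} {u : ℂ} {τ : ℝ} (hg : Good k (O.w i) (O.y i) u) (hτ : 0 ≤ τ)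
    (hz : zz (O.s i) = τ * u) (h : (O.s i).2 ≠ 1) :
    ∃ τ' : ℝ, zz (O.s (i + 1)) = τ' * u ^ 2 ∧ τ ^ 2 ≤ τ' ∧
      (bb (O.x i) = 1 → 2 ≤ nsq (O.y i) → nsq (O.y i) ≤ 99 → (2 / δ ^ 17 * δ ^ k) ^ 2 ≤ τ') := by
  have h0 := O.hδ0
  obtain ⟨ρ, r0, r1, r2⟩ := hg.read h0.le
  have hb := bb_nonneg (O.x i)
  have hp : 0 ≤ 2 / δ ^ 17 * bb (O.x i) * ρ := by positivity
  refine ⟨(τ + 2 / δ ^ 17 * bb (O.x i) * ρ) ^ 2, ?_, by gcongr; linarith, fun c1 c2 c3 => ?_⟩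
  · rw [O.z_succ h, hz, beta, r1]; push_cast; ring
  · rw [c1, mul_one]
    have := r2 c2 c3
    have : 2 / δ ^ 17 * δ ^ k ≤ 2 / δ ^ 17 * ρ := by gcongr
    gcongr
    linarith

theorem good_start {j : ℕ} (h1 : 6 < O.x j) (h2 : O.x j ≤ 7) (h : (O.s j).2 ≠ 1) {r : ℝ}
    {u : ℂ} (hr : 0 ≤ r) (hu : ‖u‖ = 1) (hz : zz (O.s j) = r * u) :
    Good 1 (O.w (j + 2)) (O.y (j + 2)) (u ^ 4) ∧
      (r ≤ 2 → r ^ 4 / 160 ≤ nsq (O.y (j + 2))) := by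
  obtain ⟨a1, a2, a3, a4⟩ := O.W_times h1 h2
  have h0 := O.hδ0
  have b0 : bb (O.x j) = 0 := bb_hi (by linarith)
  have h' := O.fin_succ h
  have hz' : zz (O.s (j + 1)) = ((r ^ 2 : ℝ) : ℂ) * u ^ 2 := by
    rw [O.z_sq h b0, hz]; push_cast; ring
  have n0 : ‖zz (O.s j)‖ = r := by rw [hz, norm_mul, hu, Complex.norm_of_nonneg hr, mul_one]
  have n1 : ‖zz (O.s (j + 1))‖ = r ^ 2 := by
    rw [hz', norm_mul, norm_pow, hu, Complex.norm_of_nonneg (by positivity), one_pow, mul_one]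
  have q0 := one_sub_h (O.hs j) h
  have q1 := one_sub_h (O.hs (j + 1)) h'
  rw [n0] at q0
  rw [n1] at q1
  set Q0 := 1 - (O.s j).2 with hQ0
  set Q1 := 1 - (O.s (j + 1)).2 with hQ1
  have Q0p : 0 ≤ Q0 := by nlinarith [O.h_sq_le j]
  have Q1p : 0 ≤ Q1 := by nlinarith [O.h_sq_le (j + 1)]
  have x0 : (O.s j).1 = ((Q0 * r : ℝ) : ℂ) * u := by
    rw [xi_eq h, hz, ← hQ0]; push_cast; ring
  have x1 : (O.s (j + 1)).1 = ((Q1 * r ^ 2 : ℝ) : ℂ) * u ^ 2 := by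
    rw [xi_eq h', hz', ← hQ1]; push_cast; ring
  have t0 := STn ((92 - 100 * (O.s j).2) / 3)
  have t1 := STn ((92 - 100 * (O.s (j + 1)).2) / 3)
  change 0 ≤ th (O.s j).2 at t0
  change 0 ≤ th (O.s (j + 1)).2 at t1
  have t0' : r ≤ 2 → th (O.s j).2 = 1 ∧ 2 / 5 ≤ Q0 := fun hr2 => by
    have : 2 / 5 ≤ Q0 := (num3 Q0p hr q0).2.1 hr2
    exact ⟨ST1 (by linarith), this⟩
  have t1' : r ≤ 2 → th (O.s (j + 1)).2 = 1 ∧ 2 / 17 ≤ Q1 := fun hr2 => by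
    have : r ^ 2 ≤ 2 ^ 2 := by gcongr
    have : 2 / 17 ≤ Q1 := (num3 Q1p (by positivity) q1).2.2 (by linarith)
    exact ⟨ST1 (by linarith), this⟩
  have w1 : O.w (j + 1) = 4 - O.x j / 2 := by rw [O.ws, wN, chi_one h1.le h2]; ring
  have y1 : O.y (j + 1) = Gam (4 - O.x j / 2) (((th (O.s j).2 * (Q0 * r) : ℝ) : ℂ) * u)
      (((th (O.s j).2 * (Q0 * r) ^ 2 : ℝ) : ℂ) * u ^ 2) := by
    rw [O.ys, yN, chi_one h1.le h2, x0]
    ext <;> simp [Gam] <;> ring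
  have g1 : Good 0 (O.w (j + 1)) (O.y (j + 1)) (u ^ 2) :=
    ⟨4 - O.x j / 2, _, _, u, by linarith, by linarith, by positivity, by positivity, hu,
      by rw [w1]; simp, y1, by norm_num⟩
  have A1 : Q0 * r ≤ 1 := (num3 Q0p hr q0).1
  have G := G0_ge h0 O.hδ1
  have lam1 : ∀ y : ℂ × ℂ, nsq y ≤ 32 → nsq y ≤ nsq (Grow δ y) := fun y hy =>
    le_trans (le_min (le_mul_of_one_le_left (nsq_nonneg y) (by linarith)) hy) (le_nsq_Grow h0 y)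
  rcases le_or_gt (29 / 4) (O.x (j + 1)) with hc | hc
  · have c1 := chi_hi hc
    have e1 : O.w (j + 2) = O.w (j + 1) / 2 := by rw [O.ws, wN_zero c1]
    have e2 : O.y (j + 2) = Grow δ (O.y (j + 1)) := by rw [O.ys, yN_zero c1]
    refine ⟨?_, fun hr2 => ?_⟩
    · rw [e1, e2, show u ^ 4 = (u ^ 2) ^ 2 by ring]
      exact g1.step (lam_pos h0 _).le
    · obtain ⟨c2, c3⟩ := t0' hr2
      have hr' := STn (6 - 8 * (4 - O.x j / 2))
      have hr'' := STl (6 - 8 * (4 - O.x j / 2))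
      change 0 ≤ rr (4 - O.x j / 2) at hr'
      change rr (4 - O.x j / 2) ≤ 1 at hr''
      have e3 := nsq_Gam (4 - O.x j / 2) (th (O.s j).2 * (Q0 * r)) (th (O.s j).2 * (Q0 * r) ^ 2) hu
      rw [← y1, c2, one_mul, one_mul] at e3
      obtain ⟨l5, l6⟩ := num1 hr' hr'' hr (A := Q0 * r) (by gcongr) A1
      rw [← e3] at l5 l6
      rw [e2]
      exact l5.trans (lam1 _ (by linarith))
  · have r0 : rr (4 - O.x j / 2) = 0 := rr0 (by linarith)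
    have r1 : rr (4 - O.x (j + 1) / 2) = 1 := rr1 (by linarith)
    have c0 := chi_nonneg (O.x (j + 1))
    have c1 := chi_le (O.x (j + 1))
    have l0 := lam_pos h0 (O.y (j + 1))
    set χ := chi (O.x (j + 1)) with hχ
    have c2 : 0 ≤ 1 - χ := by linarith
    have e1 : O.w (j + 2) = χ * (4 - O.x (j + 1) / 2) + (1 - χ) * ((4 - O.x j / 2) / 2) := by
      rw [O.ws, wN, w1]
    have y1' : O.y (j + 1) = (0, ((th (O.s j).2 * (Q0 * r) ^ 2 : ℝ) : ℂ) * u ^ 2) := by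
      rw [y1]; simp [Gam, r0]
    set A' := χ * th (O.s (j + 1)).2 * (Q1 * r ^ 2) +
      (1 - χ) * (lam δ (O.y (j + 1)) * (th (O.s j).2 * (Q0 * r) ^ 2)) with hA'
    have e2 : O.y (j + 2) = (0, (A' : ℂ) * u ^ 2) := by
      rw [O.ys, yN, Grow, x1, hA', ← hχ]
      generalize lam δ (O.y (j + 1)) = l
      rw [y1']
      ext <;> simp [Gam, r1]
      ring
    obtain ⟨m1, m2⟩ := num4 c0 c1 h1 (by linarith)
    rw [← a1, ← e1] at m1 m2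
    have r2 : rr (2 * O.w (j + 2)) = 0 := rr0 m1
    have hn : ∀ a : ℝ, nsq (0, (a : ℂ) * u ^ 2) = a ^ 2 := fun a => by
      simp [nsq, n2_eq, hu]
    refine ⟨⟨2 * O.w (j + 2), 0, A', u, by linarith, m2, le_rfl,
      by positivity, hu, by ring, by rw [e2]; simp [Gam, r2], by norm_num⟩, fun hr2 => ?_⟩
    obtain ⟨d1, d2⟩ := t0' hr2
    obtain ⟨d3, d4⟩ := t1' hr2
    rw [e2, hn]
    have A0 : 2 / 5 * r ≤ Q0 * r := by gcongr
    have A2 : ((Q0 * r) ^ 2) ^ 2 ≤ 1 :=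
      pow_le_one₀ (by positivity) (pow_le_one₀ (by positivity) A1)
    have l1 := lam1 (O.y (j + 1)) (by rw [y1', hn, d1, one_mul]; linarith)
    rw [Grow, nsq_smul] at l1
    have l2 : (Q0 * r) ^ 2 ≤ lam δ (O.y (j + 1)) * (Q0 * r) ^ 2 := by
      generalize lam δ (O.y (j + 1)) = l at l0 l1
      rw [y1', hn, d1, one_mul, ← mul_pow] at l1
      exact (pow_le_pow_iff_left₀ (by positivity) (by positivity) two_ne_zero).1 l1
    have l3 : (2 / 5 * r) ^ 2 ≤ (Q0 * r) ^ 2 := by gcongr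
    have l4 : 2 / 17 * r ^ 2 ≤ Q1 * r ^ 2 := by gcongr
    rw [hA', d1, d3, one_mul, mul_one]
    exact num2 c0 c1 l4 (l3.trans l2)

end Orb

end Crest.Agent.R123
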