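import Mathlib
import Crest.Agent.R123.Dyn

set_option autoImplicit false

open Complex Real Filter
open scoped Topology

namespace Crest.Agent.R123

theorem num5 {δ r : ℝ} (h0 : 0 < δ) (h1 : δ ≤ 1 / 2) (hr : 0 ≤ r) (hr2 : r ≤ 2) {K k : ℕ}
    (hk : k ≤ K + 16) (hK : ∀ K', K = K' + 1 → G0 δ ^ K' * r ^ 4 < 800) :
    2 * r ≤ (((2 / δ ^ 17 * δ ^ k) ^ 2) ^ 2) ^ 2 := by
  have hd1 : δ ≤ 1 := by linarith
  have e1 : δ ^ (K + 16) ≤ δ ^ k := pow_le_pow_of_le_one h0.le hd1 hk
  have e2 : (((2 / δ ^ 17 * δ ^ (K + 16)) ^ 2) ^ 2) ^ 2 ≤ (((2 / δ ^ 17 * δ ^ k) ^ 2) ^ 2) ^ 2 := by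
    gcongr
  refine le_trans ?_ e2
  cases K with
  | zero =>
    have e : (((2 / δ ^ 17 * δ ^ (0 + 16)) ^ 2) ^ 2) ^ 2 = 256 / δ ^ 8 := by field_simp; ring
    rw [e, le_div_iff₀ (by positivity)]
    have : δ ^ 8 ≤ 1 := pow_le_one₀ h0.le hd1
    nlinarith
  | succ K =>
    have e : (((2 / δ ^ 17 * δ ^ (K + 1 + 16)) ^ 2) ^ 2) ^ 2 = 256 * (δ ^ 8) ^ K := by
      field_simp; ring
    have h := hK K rfl
    have e3 : G0 δ ^ K * r ^ 4 = (r / (δ ^ 8) ^ K) ^ 4 := by
      rw [G0, one_div_pow, div_pow, ← pow_mul, ← pow_mul, ← pow_mul,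
        show 8 * (K * 4) = 32 * K by ring]
      ring
    rw [e3] at h
    have h6 : r / (δ ^ 8) ^ K < 6 := lt_of_pow_lt_pow_left₀ 4 (by norm_num) (by linarith)
    rw [div_lt_iff₀ (by positivity)] at h6
    have : 0 < (δ ^ 8) ^ K := by positivity
    rw [e]
    linarith

namespace Orb

variable {δ : ℝ} (O : Orb δ)

theorem next_W (hn : ¬ Tendsto O.st atTop (𝓝 0)) {j : ℕ} (h1 : 6 < O.x j) (h2 : O.x j ≤ 7)
    (h : (O.s j).2 ≠ 1) (hr : zz (O.s j) ≠ 0) :
    ∃ j', 6 < O.x j' ∧ O.x j' ≤ 7 ∧ (O.s j').2 ≠ 1 ∧ 2 * ‖zz (O.s j)‖ ≤ ‖zz (O.s j')‖ := by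
  classical
  obtain ⟨a1, a2, a3, a4⟩ := O.W_times h1 h2
  have h0 := O.hδ0
  have G := G0_ge h0 O.hδ1
  set r := ‖zz (O.s j)‖ with hrdef
  have rp : 0 < r := norm_pos_iff.2 hr
  set u : ℂ := zz (O.s j) / r with hudef
  have rc : (r : ℂ) ≠ 0 := ofReal_ne_zero.2 rp.ne'
  have hu : ‖u‖ = 1 := by
    rw [hudef, norm_div, Complex.norm_of_nonneg rp.le, ← hrdef, div_self rp.ne']
  have hz : zz (O.s j) = r * u := by rw [hudef]; field_simp
  obtain ⟨g2, g2'⟩ := O.good_start h1 h2 h rp.le hu hz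
  have fin := O.fin_all h
  have z1 : zz (O.s (j + 1)) = zz (O.s j) ^ 2 := O.z_sq h (bb_hi (by linarith))
  have z2 : zz (O.s (j + 2)) = zz (O.s (j + 1)) ^ 2 := O.z_sq (fin 1) (bb_hi (by linarith))
  have z3 : zz (O.s (j + 3)) = zz (O.s (j + 2)) ^ 2 := O.z_sq (fin 2) (bb_hi (by linarith))
  have z4 : zz (O.s (j + 4)) = zz (O.s (j + 3)) ^ 2 := O.z_sq (fin 3) (bb_hi (by linarith))
  obtain ⟨m, m0, m1, m2, m3⟩ := O.pass hn (n := j + 4) (c := 3) (by norm_num) (by linarith)
  have x2 : O.x (m + 2) = O.x (m + 1) + 1 := O.x_one (by linarith) (by linarith)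
  have x3 : O.x (m + 3) = O.x (m + 2) + 1 := O.x_one (by linarith) (by linarith)
  have x4 : O.x (m + 4) = O.x (m + 3) + 1 := O.x_one (by linarith) (by linarith)
  have hchi : ∀ i, j + 2 ≤ i → i ≤ m + 2 → chi (O.x i) = 0 := by
    intro i i1 i2
    rcases (show i = j + 2 ∨ i = j + 3 ∨ (j + 4 ≤ i ∧ i ≤ m) ∨ i = m + 1 ∨ i = m + 2 by omega) with
      rfl | rfl | ⟨c1, c2⟩ | rfl | rfl
    · exact chi_hi (by linarith)
    · exact chi_hi (by linarith)
    · exact chi_lo (by linarith [m1 i c1 c2])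
    · exact chi_lo (by linarith)
    · exact chi_lo (by linarith)
  have finm : ∀ i, j ≤ i → (O.s i).2 ≠ 1 := fun i hi => by
    obtain ⟨t, rfl⟩ := Nat.exists_eq_add_of_le hi
    exact fin t
  have ygrow : ∀ i, j + 2 ≤ i → i ≤ m + 2 → O.y (i + 1) = Grow δ (O.y i) := fun i i1 i2 => by
    rw [O.ys, yN_zero (hchi i i1 i2)]
  have inv : ∀ t, j + 2 + t ≤ m + 3 → ∃ (u : ℂ) (τ : ℝ),
      Good (1 + t) (O.w (j + 2 + t)) (O.y (j + 2 + t)) u ∧ 0 ≤ τ ∧
        zz (O.s (j + 2 + t)) = τ * u ∧ (1 ≤ r → r ^ 2 ≤ τ) := by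
    intro t
    induction t with
    | zero =>
      intro _
      refine ⟨u ^ 4, r ^ 4, g2, by positivity, ?_, fun h => ?_⟩
      · rw [add_zero, z2, z1, hz]; push_cast; ring
      · exact pow_le_pow_right₀ h (by norm_num)
    | succ t ih =>
      intro ht
      obtain ⟨u, τ, c1, c2, c3, c4⟩ := ih (by omega)
      obtain ⟨τ', d1, d2, -⟩ := O.coh_step c1 c2 c3 (finm _ (by omega))
      refine ⟨u ^ 2, τ', ?_, (sq_nonneg τ).trans d2, d1, fun h => ?_⟩
      · rw [← add_assoc, ← add_assoc, O.ws, wN_zero (hchi _ (by omega) (by omega)),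
          ygrow _ (by omega) (by omega)]
        exact c1.step (lam_pos h0 _).le
      · have := c4 h
        have : 1 ≤ r ^ 2 := one_le_pow₀ h
        nlinarith
  have zl : zz (O.s (m + 4)) = zz (O.s (m + 3)) ^ 2 :=
    O.z_sq (finm _ (by omega)) (bb_hi (by linarith))
  refine ⟨m + 4, by linarith, by linarith, finm _ (by omega), ?_⟩
  rcases le_total 2 r with hr2 | hr2
  · obtain ⟨u, τ, c1, c2, c3, c4⟩ := inv (m + 3 - (j + 2)) (by omega)
    rw [show j + 2 + (m + 3 - (j + 2)) = m + 3 by omega] at c1 c3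
    rw [zl, c3, norm_pow, norm_mul, c1.norm, Complex.norm_of_nonneg c2, mul_one]
    have := c4 (by linarith)
    have e1 : 2 * r ≤ τ := by nlinarith
    have e2 : τ ≤ τ ^ 2 := by nlinarith
    linarith
  -- growth of the register
  have grow : ∀ t, j + 2 + t ≤ m + 3 →
      min (G0 δ ^ t * (r ^ 4 / 160)) 32 ≤ nsq (O.y (j + 2 + t)) := by
    intro t
    induction t with
    | zero => intro _; exact (min_le_left _ _).trans (by simpa using g2' hr2)
    | succ t ih =>
      intro ht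
      rw [← add_assoc, ygrow _ (by omega) (by omega), pow_succ', mul_assoc]
      exact min_le_Grow h0 O.hδ1 (ih (by omega))
  have hex : ∃ K : ℕ, 800 ≤ G0 δ ^ K * r ^ 4 := by
    obtain ⟨K, hK⟩ := pow_unbounded_of_one_lt (800 / r ^ 4) (show 1 < G0 δ by linarith)
    exact ⟨K, ((div_lt_iff₀ (by positivity)).1 hK).le⟩
  set K := Nat.find hex with hKdef
  have hK : 800 ≤ G0 δ ^ K * r ^ 4 := Nat.find_spec hex
  have big : ∀ i, j + 2 + K ≤ i → i ≤ m + 3 → 5 ≤ nsq (O.y i) := by
    intro i i1 i2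
    obtain ⟨t, rfl⟩ : ∃ t, i = j + 2 + t := ⟨i - (j + 2), by omega⟩
    refine le_trans (le_min ?_ (by norm_num)) (grow t i2)
    have : G0 δ ^ K ≤ G0 δ ^ t := pow_le_pow_right₀ (by linarith) (by omega)
    have : G0 δ ^ K * r ^ 4 ≤ G0 δ ^ t * r ^ 4 := by gcongr
    linarith
  have hm : m ≤ j + 4 + K + 12 := by
    by_contra hcon
    have : ∀ t, t ≤ 13 → O.x (j + 4 + K + t) = O.x (j + 4 + K) + t := by
      intro t
      induction t with
      | zero => simp
      | succ t ih =>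
        intro ht
        rw [← add_assoc, O.x_succ (by linarith [m1 (j + 4 + K + t) (by omega) (by omega)]),
          ih (by omega), st, step_one' _ _ (big _ (by omega) (by omega))]
        push_cast; ring
    have e := this 13 le_rfl
    have := m1 (j + 4 + K + 13) (by omega) (by omega)
    have := O.hx0 (j + 4 + K)
    push_cast at e
    linarith
  have hy2 : 2 ≤ nsq (O.y (m + 1)) := by
    by_contra hcon
    push Not at hcon
    have small : ∀ i, j + 2 ≤ i → i ≤ m + 1 → nsq (O.y i) ≤ 4 := by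
      intro i i1 i2
      by_contra hc
      push Not at hc
      have : ∀ t, i + t ≤ m + 1 → 4 ≤ nsq (O.y (i + t)) := by
        intro t
        induction t with
        | zero => intro _; exact hc.le
        | succ t ih =>
          intro ht
          rw [← add_assoc, ygrow _ (by omega) (by omega)]
          refine le_trans (le_min ?_ (by norm_num)) (le_nsq_Grow h0 _)
          have := ih (by omega)
          nlinarith
      have := this (m + 1 - i) (by omega)
      rw [show i + (m + 1 - i) = m + 1 by omega] at this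
      linarith
    have rs : r ≤ 1 / 2 := by
      by_contra hc
      push Not at hc
      have e := grow 1 (by omega)
      have := small (j + 2 + 1) (by omega) (by omega)
      have e2 : (1 / 2 : ℝ) ^ 4 ≤ r ^ 4 := by gcongr
      have e3 : 5 ≤ G0 δ ^ 1 * (r ^ 4 / 160) := by rw [pow_one]; nlinarith
      have := (le_min e3 (by norm_num : (5 : ℝ) ≤ 32)).trans e
      linarith
    have hsq : ∀ a : ℝ, 0 ≤ a → a ≤ 1 / 2 → a ^ 2 ≤ 1 / 2 := fun a a0 a1 => by nlinarith
    have : ∀ t, j + 4 + t ≤ m + 1 → O.x (j + 4 + t) ≤ 0 ∧ ‖zz (O.s (j + 4 + t))‖ ≤ 1 / 2 := by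
      intro t
      induction t with
      | zero =>
        intro _
        refine ⟨by rw [add_zero]; linarith, ?_⟩
        rw [add_zero, z4, z3, z2, z1, norm_pow, norm_pow, norm_pow, norm_pow, ← hrdef]
        exact hsq _ (by positivity) (hsq _ (by positivity) (hsq _ (by positivity)
          (hsq _ rp.le rs)))
      | succ t ih =>
        intro ht
        obtain ⟨c1, c2⟩ := ih (by omega)
        have f := finm (j + 4 + t) (by omega)
        refine ⟨?_, ?_⟩
        · rw [← add_assoc, O.x_succ (by linarith)]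
          refine step_stuck c1 ?_ (small _ (by omega) (by omega))
          have q := one_sub_h (O.hs _) f
          have q1 : ‖zz (O.s (j + 4 + t))‖ ^ 2 ≤ (1 / 2) ^ 2 := by gcongr
          have q2 := O.h_sq_le (j + 4 + t)
          generalize (O.s (j + 4 + t)).2 = hh at q q2 ⊢
          generalize ‖zz (O.s (j + 4 + t))‖ ^ 2 = R at q q1
          have : hh ≤ -3 / 5 := by nlinarith
          nlinarith
        · rw [← add_assoc, O.z_sq f (bb_lo (by linarith)), norm_pow]
          exact hsq _ (norm_nonneg _) c2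
    have := (this (m + 1 - (j + 4)) (by omega)).1
    rw [show j + 4 + (m + 1 - (j + 4)) = m + 1 by omega] at this
    linarith
  obtain ⟨u1, τ1, c1, c2, c3, -⟩ := inv (m + 1 - (j + 2)) (by omega)
  rw [show j + 2 + (m + 1 - (j + 2)) = m + 1 by omega] at c1 c3
  obtain ⟨τ2, d1, d2, d3⟩ := O.coh_step c1 c2 c3 (finm _ (by omega))
  have d4 := d3 (bb_one m2.le (by linarith)) hy2
    (by rw [ygrow m (by omega) (by omega)]; linarith [nsq_Grow_lt h0 (O.y m)])
  have c1' : Good (1 + (m + 1 - (j + 2)) + 1) (O.w (m + 2)) (O.y (m + 2)) (u1 ^ 2) := by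
    rw [O.ws, wN_zero (hchi _ (by omega) (by omega)), ygrow _ (by omega) (by omega)]
    exact c1.step (lam_pos h0 _).le
  have τ2p : 0 ≤ τ2 := (sq_nonneg _).trans d2
  obtain ⟨τ3, f1, f2, -⟩ := O.coh_step c1' τ2p d1 (finm _ (by omega))
  have τ3p : 0 ≤ τ3 := (sq_nonneg _).trans f2
  rw [zl, f1, norm_pow, norm_mul, norm_pow, c1'.norm, Complex.norm_of_nonneg τ3p, one_pow, mul_one]
  refine (num5 h0 O.hδ1 rp.le hr2 (K := K) (k := 1 + (m + 1 - (j + 2))) (by omega)
    fun K' hK' => not_le.1 (Nat.find_min hex (by omega))).trans ?_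
  gcongr
  refine le_trans ?_ f2
  gcongr

theorem st_tendsto : Tendsto O.st atTop (𝓝 0) := by
  by_contra hn
  have hW : ∀ j, 6 < O.x j → O.x j ≤ 7 →
      (O.s j).2 ≠ 1 ∧ zz (O.s j) ≠ 0 ∧ ‖zz (O.s j)‖ < 5 := by
    intro j h1 h2
    have hd : ¬ ((O.s j).1 = 0 ∨ 23 / 25 ≤ (O.s j).2) := fun h => hn (O.dead_W h1 h2 h)
    push Not at hd
    have h : (O.s j).2 ≠ 1 := by linarith [hd.2]
    refine ⟨h, fun e => hd.1 (by rw [xi_eq h, e, mul_zero]), ?_⟩
    have q := one_sub_h (O.hs j) h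
    by_contra hc
    push Not at hc
    have : 5 ^ 2 ≤ ‖zz (O.s j)‖ ^ 2 := by gcongr
    nlinarith [hd.2]
  obtain ⟨j, h1, h2⟩ := O.exists_W hn
  have : ∀ n : ℕ, ∃ j', 6 < O.x j' ∧ O.x j' ≤ 7 ∧ 2 ^ n * ‖zz (O.s j)‖ ≤ ‖zz (O.s j')‖ := by
    intro n
    induction n with
    | zero => exact ⟨j, h1, h2, by simp⟩
    | succ n ih =>
      obtain ⟨j', a1, a2, a3⟩ := ih
      obtain ⟨j'', b1, b2, -, b3⟩ := O.next_W hn a1 a2 (hW j' a1 a2).1 (hW j' a1 a2).2.1
      exact ⟨j'', b1, b2, by rw [pow_succ]; linarith⟩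
  have rp : 0 < ‖zz (O.s j)‖ := norm_pos_iff.2 (hW j h1 h2).2.1
  obtain ⟨n, hn'⟩ := pow_unbounded_of_one_lt (5 / ‖zz (O.s j)‖) (show (1 : ℝ) < 2 by norm_num)
  obtain ⟨j', a1, a2, a3⟩ := this n
  rw [div_lt_iff₀ rp] at hn'
  linarith [(hW j' a1 a2).2.2]

theorem eventually_small : ∃ n, ∀ k, n ≤ k → O.st k < 1 / 4 ∧ O.x k ^ 2 ≤ 1 := by
  obtain ⟨n, hn⟩ := eventually_atTop.1
    (O.st_tendsto.eventually (gt_mem_nhds (show (0 : ℝ) < 1 / 4 by norm_num)))
  refine ⟨n, fun k hk => ⟨hn k hk, ?_⟩⟩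
  by_contra hc
  push Not at hc
  linarith [om_ge hc.le, om_le_step (O.hs k) (O.x k) (O.y k), hn k hk,
    show O.st k = step (O.x k) (O.s k) (O.y k) from rfl]

theorem y_tendsto : Tendsto O.y atTop (𝓝 0) := by
  obtain ⟨n, hn⟩ := O.eventually_small
  have G := G0_ge O.hδ0 O.hδ1
  have yg : ∀ k, n ≤ k → O.y (k + 1) = Grow δ (O.y k) := fun k hk => by
    rw [O.ys, yN_zero (chi_lo (by nlinarith [(hn k hk).2]))]
  have h0 : O.y n = 0 := by
    by_contra hc
    have hp : 0 < nsq (O.y n) := by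
      refine (nsq_nonneg _).lt_of_ne fun e => hc ?_
      rw [nsq, n2_eq, n2_eq] at e
      ext
      · exact norm_eq_zero.1 (by nlinarith [sq_nonneg ‖(O.y n).2‖, norm_nonneg (O.y n).1])
      · exact norm_eq_zero.1 (by nlinarith [sq_nonneg ‖(O.y n).1‖, norm_nonneg (O.y n).2])
    have grow : ∀ t, min (G0 δ ^ t * nsq (O.y n)) 32 ≤ nsq (O.y (n + t)) := by
      intro t
      induction t with
      | zero => simp
      | succ t ih =>
        rw [← add_assoc, yg _ (by omega), pow_succ', mul_assoc]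
        exact min_le_Grow O.hδ0 O.hδ1 ih
    obtain ⟨K, hK⟩ := pow_unbounded_of_one_lt (5 / nsq (O.y n)) (show 1 < G0 δ by linarith)
    rw [div_lt_iff₀ hp] at hK
    have := step_one' (O.x (n + K)) (O.s (n + K)) ((le_min hK.le (by norm_num)).trans (grow K))
    have h2 := (hn (n + K) (by omega)).1
    rw [st, this] at h2
    norm_num at h2
  have : ∀ t, O.y (n + t) = 0 := by
    intro t
    induction t with
    | zero => exact h0
    | succ t ih => rw [← add_assoc, yg _ (by omega), ih, Grow_zero]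
  refine tendsto_const_nhds.congr' (eventually_atTop.2 ⟨n, fun k hk => ?_⟩)
  obtain ⟨t, rfl⟩ := Nat.exists_eq_add_of_le hk
  exact (this t).symm

theorem w_tendsto : Tendsto O.w atTop (𝓝 0) := by
  obtain ⟨n, hn⟩ := O.eventually_small
  have : ∀ t, O.w (t + n) = O.w n * (1 / 2) ^ t := by
    intro t
    induction t with
    | zero => simp
    | succ t ih =>
      rw [show t + 1 + n = t + n + 1 by ring, O.ws,
        wN_zero (chi_lo (by nlinarith [(hn (t + n) (by omega)).2])), ih]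
      ring
  rw [← tendsto_add_atTop_iff_nat n]
  simp only [this]
  simpa using (tendsto_pow_atTop_nhds_zero_of_lt_one (show (0 : ℝ) ≤ 1 / 2 by norm_num)
    (by norm_num)).const_mul (O.w n)

theorem s_tendsto : ∃ p, Tendsto O.s atTop (𝓝 p) := by
  obtain ⟨n, hn⟩ := O.eventually_small
  have hb : ∀ k, n ≤ k → bb (O.x k) = 0 := fun k hk => bb_lo (by nlinarith [(hn k hk).2])
  have sq0 : ∀ {f : ℕ → ℂ}, Tendsto (fun k => n2 (f k)) atTop (𝓝 0) → Tendsto f atTop (𝓝 0) := by
    intro f hf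
    rw [tendsto_zero_iff_norm_tendsto_zero]
    have := hf.sqrt
    simpa [n2_eq] using this
  by_cases h : (O.s n).2 = 0
  · have h2 : ∀ t, (O.s (n + t)).2 = 0 := by
      intro t
      induction t with
      | zero => exact h
      | succ t ih => rw [← add_assoc, O.h_succ (hb _ (by omega)), ih]; simp
    have h3 : ∀ᶠ k in atTop, (O.s k).2 = 0 := eventually_atTop.2 ⟨n, fun k hk => by
      obtain ⟨t, rfl⟩ := Nat.exists_eq_add_of_le hk
      exact h2 t⟩
    refine ⟨(1, 0), Tendsto.prodMk_nhds ?_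
      (tendsto_const_nhds.congr' (h3.mono fun k hk => hk.symm))⟩
    rw [← tendsto_sub_nhds_zero_iff]
    apply sq0
    refine squeeze_zero' (Eventually.of_forall fun k => n2_nonneg _) ?_
      (by simpa using O.st_tendsto.const_mul 4)
    filter_upwards [h3] with k hk
    have := kap_le_step (O.hs k) (O.x k) (O.y k)
    rw [kap, hk, ST1 (by norm_num)] at this
    change _ ≤ 4 * step _ _ _
    linarith
  · set q := 1 - (O.s n).2 ^ 2 with hq
    have q0 : 0 ≤ q := by linarith [O.h_sq_le n]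
    have q1 : q < 1 := by have : 0 < (O.s n).2 ^ 2 := by positivity
                          linarith
    have key : ∀ t, 1 - (O.s (t + n)).2 ^ 2 ≤ q ^ (t + 1) ∧ 0 < (O.s (t + n)).2 * (O.s n).2 := by
      intro t
      induction t with
      | zero => exact ⟨by simp [hq], by simpa using mul_self_pos.2 h⟩
      | succ t ih =>
        obtain ⟨i1, i2⟩ := ih
        rw [show t + 1 + n = t + n + 1 by ring, O.h_succ (hb _ (by omega))]
        have i3 := O.h_sq_le (t + n)
        generalize (O.s (t + n)).2 = g at i1 i2 i3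
        refine ⟨?_, ?_⟩
        · have e : 1 - (2 * g / (1 + g ^ 2)) ^ 2 = (1 - g ^ 2) ^ 2 / (1 + g ^ 2) ^ 2 := by
            field_simp; ring
          have e2 : q ^ (t + 1) ≤ q := pow_le_of_le_one q0 q1.le (by omega)
          have e3 : (1 - g ^ 2) ^ 2 ≤ q ^ (t + 1) * q := by
            rw [sq]
            exact mul_le_mul i1 (i1.trans e2) (by linarith) (by positivity)
          rw [e, pow_succ q (t + 1)]
          exact (div_le_self (by positivity) (one_le_pow₀ (by nlinarith [sq_nonneg g]))).trans e3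
        · rw [div_mul_eq_mul_div, mul_assoc]
          positivity
    have lim : Tendsto (fun t => 1 - (O.s (t + n)).2 ^ 2) atTop (𝓝 0) :=
      squeeze_zero (fun t => by linarith [O.h_sq_le (t + n)]) (fun t => (key t).1)
        ((tendsto_add_atTop_iff_nat 1).2 (tendsto_pow_atTop_nhds_zero_of_lt_one q0 q1))
    have l1 : Tendsto (fun t => (O.s (t + n)).1) atTop (𝓝 0) := by
      apply sq0
      refine lim.congr fun t => ?_
      linarith [O.hs (t + n)]
    rcases lt_or_gt_of_ne h with hneg | hpos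
    · refine ⟨(0, -1), (tendsto_add_atTop_iff_nat n).1 (Tendsto.prodMk_nhds l1 ?_)⟩
      rw [← tendsto_sub_nhds_zero_iff]
      refine squeeze_zero (fun t => ?_) (fun t => ?_) lim
      · nlinarith [O.h_sq_le (t + n)]
      · have : (O.s (t + n)).2 < 0 := by
          by_contra hc
          nlinarith [(key t).2]
        nlinarith [O.h_sq_le (t + n)]
    · refine ⟨(0, 1), (tendsto_add_atTop_iff_nat n).1 (Tendsto.prodMk_nhds l1 ?_)⟩
      rw [← tendsto_sub_nhds_zero_iff, ← neg_zero, ← tendsto_neg_iff]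
      simp only [neg_neg]
      refine squeeze_zero (fun t => ?_) (fun t => ?_) lim
      · nlinarith [O.h_sq_le (t + n)]
      · have : 0 < (O.s (t + n)).2 := by
          by_contra hc
          nlinarith [(key t).2]
        nlinarith [O.h_sq_le (t + n)]

end Orb

end Crest.Agent.R123
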