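import Mathlib

set_option autoImplicit false

open Set Filter Dynamics
open scoped Uniformity Topology

namespace Crest.Agent.R123

variable {X : Type*} [MetricSpace X]

theorem uniform_avg [CompactSpace X] {T : X → X} (hT : Continuous T) {c : X → ℝ}
    (hc : Continuous c) {η : ℝ} (hη : 0 ≤ η)
    (h : ∀ x, ∃ n : ℕ, birkhoffSum T c (n + 1) x < η * (n + 1 : ℕ)) :
    ∃ C : ℝ, ∀ n x, birkhoffSum T c n x ≤ η * n + C := by
  have hcont : ∀ n : ℕ, Continuous (fun x => birkhoffSum T c n x) := by
    intro n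
    unfold birkhoffSum
    exact continuous_finsetSum _ fun k _ => hc.comp (hT.iterate k)
  let V : ℕ → Set X := fun n => {x | birkhoffSum T c (n + 1) x < η * (n + 1 : ℕ)}
  have hV : ∀ n, IsOpen (V n) := fun n => isOpen_lt (hcont _) continuous_const
  obtain ⟨t, ht⟩ := isCompact_univ.elim_finite_subcover V hV (by
    intro x _
    obtain ⟨n, hn⟩ := h x
    exact mem_iUnion.2 ⟨n, hn⟩)
  obtain ⟨D, hD⟩ : ∃ D : ℝ, ∀ x, c x ≤ D := by
    obtain ⟨D, hD⟩ := (isCompact_range hc).bddAbove
    exact ⟨D, fun x => hD ⟨x, rfl⟩⟩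
  let N := t.sup id + 1
  refine ⟨max D 0 * N, ?_⟩
  intro n
  induction n using Nat.strong_induction_on with
  | _ n ih =>
    intro x
    by_cases hn : n ≤ N
    · have h1 : birkhoffSum T c n x ≤ max D 0 * n := by
        unfold birkhoffSum
        calc _ ≤ ∑ _k ∈ Finset.range n, max D 0 :=
              Finset.sum_le_sum fun k _ => (hD _).trans (le_max_left _ _)
          _ = _ := by simp [mul_comm]
      have h2 : max D 0 * (n : ℝ) ≤ max D 0 * N :=
        mul_le_mul_of_nonneg_left (by exact_mod_cast hn) (le_max_right _ _)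
      have h3 : 0 ≤ η * n := by positivity
      linarith
    · obtain ⟨m, hm, hx⟩ : ∃ m ∈ t, x ∈ V m := by
        have := ht (mem_univ x)
        simpa using this
      have hmN : m + 1 ≤ N := by
        have : id m ≤ t.sup id := Finset.le_sup hm
        simp only [id] at this
        omega
      obtain ⟨k, rfl⟩ : ∃ k, n = (m + 1) + k := ⟨n - (m + 1), by omega⟩
      rw [birkhoffSum_add]
      have h1 := ih k (by omega) (T^[m + 1] x)
      have h2 : birkhoffSum T c (m + 1) x < η * (m + 1 : ℕ) := hx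
      push_cast at h2 ⊢
      nlinarith

open Classical in
/-- centres of the coding -/
noncomputable def ctr (T : X → X) (net : X → X) (ε : ℝ) (x : X) : ℕ → X
  | 0 => net x
  | k + 1 => if dist (T^[k + 1] x) (ctr T net ε x k) < ε then ctr T net ε x k
      else net (T^[k + 1] x)

open Classical in
/-- the code -/
noncomputable def cod (T : X → X) (net : X → X) (ε : ℝ) (x : X) (k : ℕ) : Option X :=
  if dist (T^[k + 1] x) (ctr T net ε x k) < ε then none else some (net (T^[k + 1] x))

/-- weight of a letter -/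
def wt : Option X → ℝ
  | none => 0
  | some _ => 1

theorem ctr_succ (T : X → X) (net : X → X) (ε : ℝ) (x : X) (k : ℕ) :
    ctr T net ε x (k + 1) = (cod T net ε x k).getD (ctr T net ε x k) := by
  unfold cod
  rw [ctr]
  split_ifs <;> rfl

theorem dist_ctr {T : X → X} {net : X → X} {ε : ℝ} (hε : 0 < ε)
    (hnet : ∀ x, dist x (net x) < ε / 2) (x : X) (k : ℕ) :
    dist (T^[k] x) (ctr T net ε x k) < ε := by
  cases k with
  | zero => simpa [ctr] using (hnet x).trans (by linarith)
  | succ k =>
    rw [ctr]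
    split_ifs with h
    · exact h
    · exact (hnet _).trans (by linarith)

theorem count_ctr {T : X → X} {net : X → X} {ε : ℝ}
    (hnet : ∀ x, dist x (net x) < ε / 2) (x : X) (k : ℕ) :
    (∑ i ∈ Finset.range k, wt (cod T net ε x i)) * (ε / 2) + dist (T^[k] x) (ctr T net ε x k)
      ≤ ε / 2 + birkhoffSum T (fun y => dist (T y) y) k x := by
  induction k with
  | zero => simpa [ctr] using (hnet x).le
  | succ k ih =>
    rw [Finset.sum_range_succ, birkhoffSum_succ]
    have tri : dist (T^[k + 1] x) (ctr T net ε x k) ≤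
        dist (T (T^[k] x)) (T^[k] x) + dist (T^[k] x) (ctr T net ε x k) := by
      rw [Function.iterate_succ_apply']
      exact dist_triangle _ _ _
    generalize (∑ i ∈ Finset.range k, wt (cod T net ε x i)) = W at ih ⊢
    rw [ctr]
    unfold cod
    split_ifs with h
    · simp only [wt]
      linarith
    · simp only [wt]
      have := hnet (T^[k + 1] x)
      push Not at h
      linarith

theorem ctr_eq {T : X → X} {net : X → X} {ε : ℝ} {x y : X} {n : ℕ} (h0 : net x = net y)
    (h : ∀ i < n, cod T net ε x i = cod T net ε y i) :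
    ∀ k ≤ n, ctr T net ε x k = ctr T net ε y k := by
  intro k
  induction k with
  | zero => intro _; simpa [ctr] using h0
  | succ k ih =>
    intro hk
    rw [ctr_succ, ctr_succ, h k (by omega), ih (by omega)]

omit [MetricSpace X] in
theorem card_codes (S : Finset X) (n : ℕ) (J μ : ℝ) (hμ : 0 ≤ μ) [DecidableEq X]
    [DecidablePred fun τ : Fin n → Option X => ∑ i, wt (τ i) ≤ J] :
    (((Fintype.piFinset fun _ : Fin n => S.insertNone).filter
      fun τ => ∑ i, wt (τ i) ≤ J).card : ℝ) ≤
        Real.exp (n * (Real.exp (-μ) * S.card) + μ * J) := by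
  set A := (Fintype.piFinset fun _ : Fin n => S.insertNone).filter
      fun τ => ∑ i, wt (τ i) ≤ J
  have h1 : (A.card : ℝ) * Real.exp (-(μ * J)) ≤ ∑ τ ∈ A, ∏ i, Real.exp (-μ * wt (τ i)) := by
    rw [← nsmul_eq_mul, ← Finset.sum_const]
    refine Finset.sum_le_sum fun τ hτ => ?_
    rw [← Real.exp_sum, ← Finset.mul_sum]
    apply Real.exp_le_exp.2
    have := (Finset.mem_filter.1 hτ).2
    nlinarith
  have h2 : ∑ τ ∈ A, ∏ i, Real.exp (-μ * wt (τ i)) ≤
      ∑ τ ∈ Fintype.piFinset fun _ : Fin n => S.insertNone, ∏ i, Real.exp (-μ * wt (τ i)) :=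
    Finset.sum_le_sum_of_subset_of_nonneg (Finset.filter_subset _ _)
      fun _ _ _ => Finset.prod_nonneg fun _ _ => (Real.exp_pos _).le
  rw [← Finset.prod_univ_sum (fun _ : Fin n => S.insertNone)
    (fun _ o => Real.exp (-μ * wt o))] at h2
  have h3 : ∑ o ∈ S.insertNone, Real.exp (-μ * wt o) = 1 + Real.exp (-μ) * S.card := by
    rw [Finset.sum_insertNone]
    simp [wt, mul_comm]
  simp only [h3, Finset.prod_const, Finset.card_univ, Fintype.card_fin] at h2
  have h4 : (1 + Real.exp (-μ) * S.card) ^ n ≤ Real.exp (n * (Real.exp (-μ) * S.card)) := by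
    rw [Real.exp_nat_mul]
    apply pow_le_pow_left₀ (by positivity)
    linarith [Real.add_one_le_exp (Real.exp (-μ) * S.card)]
  have h5 : (A.card : ℝ) = A.card * Real.exp (-(μ * J)) * Real.exp (μ * J) := by
    rw [mul_assoc, ← Real.exp_add]; simp
  rw [h5, Real.exp_add]
  exact mul_le_mul_of_nonneg_right (h1.trans (h2.trans h4)) (Real.exp_pos _).le

theorem exists_small_cover [CompactSpace X] [Nonempty X] {T : X → X}
    (h : ∀ η : ℝ, 0 < η → ∃ C : ℝ, ∀ n x,
      birkhoffSum T (fun y => dist (T y) y) n x ≤ η * n + C)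
    {ε : ℝ} (hε : 0 < ε) {a : ℝ} (ha : 0 < a) :
    ∃ n : ℕ, n ≠ 0 ∧ ∃ s : Finset X,
      IsDynCoverOf T univ {p : X × X | dist p.1 p.2 < 2 * ε} n s ∧
        (s.card : ℝ) ≤ Real.exp (a * n) := by
  classical
  obtain ⟨S, hS⟩ : ∃ S : Finset X, ∀ x, ∃ y ∈ S, dist x y < ε / 2 := by
    obtain ⟨t, -, ht, hc⟩ := finite_cover_balls_of_compact (isCompact_univ (X := X))
      (half_pos hε)
    refine ⟨ht.toFinset, fun x => ?_⟩
    have := hc (mem_univ x)
    simpa using this
  choose net hnetS hnet using hS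
  -- parameters
  obtain ⟨μ, hμ, hμ'⟩ : ∃ μ : ℝ, 0 < μ ∧ Real.exp (-μ) * S.card ≤ a / 3 := by
    have : Tendsto (fun μ : ℝ => Real.exp (-μ) * S.card) atTop (𝓝 (0 * S.card)) :=
      Real.tendsto_exp_neg_atTop_nhds_zero.mul_const _
    rw [zero_mul] at this
    have h1 := this.eventually (ge_mem_nhds (show (0 : ℝ) < a / 3 by positivity))
    obtain ⟨μ, h2, h3⟩ := (h1.and (eventually_gt_atTop 0)).exists
    exact ⟨μ, h3, h2⟩
  obtain ⟨C, hC⟩ := h (a * ε / (6 * μ)) (by positivity)
  obtain ⟨n, hn⟩ := exists_nat_gt (max 0 (3 / a * (S.card + μ * (1 + 2 / ε * C))))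
  have hn0 : (0 : ℝ) < n := (le_max_left _ _).trans_lt hn
  have hn1 : 3 / a * (S.card + μ * (1 + 2 / ε * C)) < n := (le_max_right _ _).trans_lt hn
  refine ⟨n, by rintro rfl; simp at hn0, ?_⟩
  set J : ℝ := 1 + 2 / ε * (a * ε / (6 * μ) * n + C) with hJ
  let A := (Fintype.piFinset fun _ : Fin n => S.insertNone).filter
      fun τ => ∑ i, wt (τ i) ≤ J
  let code : X → X × (Fin n → Option X) := fun x => (net x, fun i => cod T net ε x i)
  have hcode : ∀ x, code x ∈ S ×ˢ A := by
    intro x
    refine Finset.mem_product.2 ⟨hnetS x, Finset.mem_filter.2 ⟨?_, ?_⟩⟩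
    · refine Fintype.mem_piFinset.2 fun i => ?_
      simp only [code, cod]
      split_ifs
      · simp
      · simp [hnetS]
    · have h1 := count_ctr (T := T) hnet x n
      have h2 := hC n x
      have h3 : 0 ≤ dist (T^[n] x) (ctr T net ε x n) := dist_nonneg
      simp only [code]
      rw [Fin.sum_univ_eq_sum_range (fun i => wt (cod T net ε x i)) n]
      have h4 : (∑ i ∈ Finset.range n, wt (cod T net ε x i)) * (ε / 2) ≤ J * (ε / 2) := by
        have : J * (ε / 2) = ε / 2 + (a * ε / (6 * μ) * n + C) := by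
          rw [hJ]; field_simp
        linarith
      exact le_of_mul_le_mul_right h4 (half_pos hε)
  let pick : X × (Fin n → Option X) → X := fun p => Function.invFun code p
  refine ⟨(S ×ˢ A).image pick, ?_, ?_⟩
  · intro x _
    refine ⟨pick (code x), by
      simp only [Finset.coe_image]
      exact ⟨code x, by exact_mod_cast hcode x, rfl⟩, ?_⟩
    have hp : code (pick (code x)) = code x := Function.invFun_eq ⟨x, rfl⟩
    set y := pick (code x)
    have h0 : net y = net x := congrArg Prod.fst hp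
    have h1 : ∀ i < n, cod T net ε y i = cod T net ε x i := fun i hi =>
      congrFun (congrArg Prod.snd hp) ⟨i, hi⟩
    refine mem_dynEntourage.2 fun k hk => ?_
    have e := ctr_eq h0 h1 k hk.le
    have a1 := dist_ctr (T := T) hε hnet x k
    have a2 := dist_ctr (T := T) hε hnet y k
    rw [e] at a2
    have := dist_triangle_right (T^[k] x) (T^[k] y) (ctr T net ε x k)
    show dist (T^[k] x) (T^[k] y) < 2 * ε
    linarith
  · have h1 : (((S ×ˢ A).image pick).card : ℝ) ≤ S.card * A.card := by
      rw [← Nat.cast_mul, ← Finset.card_product]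
      exact_mod_cast Finset.card_image_le
    have h2 : (A.card : ℝ) ≤ _ := card_codes S n J μ hμ.le
    have h3 : (S.card : ℝ) ≤ Real.exp S.card := by linarith [Real.add_one_le_exp (S.card : ℝ)]
    refine h1.trans ((mul_le_mul h3 h2 (by positivity) (by positivity)).trans ?_)
    rw [← Real.exp_add]
    apply Real.exp_le_exp.2
    have e1 : μ * J = μ * (1 + 2 / ε * C) + a / 3 * n := by
      rw [hJ]; field_simp; ring
    have e2 : S.card + μ * (1 + 2 / ε * C) ≤ a / 3 * n := by
      have := mul_le_mul_of_nonneg_left hn1.le (show 0 ≤ a / 3 by positivity)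
      have e : a / 3 * (3 / a * (S.card + μ * (1 + 2 / ε * C))) =
        S.card + μ * (1 + 2 / ε * C) := by field_simp
      linarith
    have e3 : n * (Real.exp (-μ) * S.card) ≤ n * (a / 3) :=
      mul_le_mul_of_nonneg_left hμ' hn0.le
    linarith

/-- If along every orbit the displacement tends to zero, the topological entropy vanishes. -/
theorem coverEntropy_eq_zero [CompactSpace X] [Nonempty X] {T : X → X} (hT : Continuous T)
    (h : ∀ x, Tendsto (fun k : ℕ => dist (T^[k + 1] x) (T^[k] x)) atTop (𝓝 0)) :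
    coverEntropy T univ = 0 := by
  have hu : ∀ η : ℝ, 0 < η → ∃ C : ℝ, ∀ n x,
      birkhoffSum T (fun y => dist (T y) y) n x ≤ η * n + C := by
    intro η hη
    refine uniform_avg hT (by fun_prop) hη.le fun x => ?_
    have h1 := (h x).cesaro
    have h2 := (h1.eventually (gt_mem_nhds hη)).and (eventually_ge_atTop 1)
    obtain ⟨n, h3, h4⟩ := h2.exists
    obtain ⟨m, rfl⟩ : ∃ m, n = m + 1 := ⟨n - 1, by omega⟩
    refine ⟨m, ?_⟩
    have hpos : (0 : ℝ) < (m + 1 : ℕ) := by positivity
    rw [inv_mul_lt_iff₀ hpos, mul_comm] at h3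
    refine lt_of_eq_of_lt ?_ h3
    unfold birkhoffSum
    refine Finset.sum_congr rfl fun k _ => ?_
    rw [Function.iterate_succ_apply']
  refine le_antisymm ?_ (coverEntropy_nonneg T univ_nonempty)
  refine iSup₂_le fun U hU => ?_
  obtain ⟨δ, hδ, hU'⟩ := Metric.mem_uniformity_dist.1 hU
  let V : SetRel X X := {p : X × X | dist p.1 p.2 < 2 * (δ / 4)}
  have : V.IsSymm := ⟨fun a b hab => by
    show dist b a < _
    rw [dist_comm]; exact hab⟩
  have hVU : SetRel.comp V V ⊆ U := by
    rintro ⟨a, b⟩ ⟨c, h1, h2⟩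
    apply hU'
    have h1' : dist a c < 2 * (δ / 4) := h1
    have h2' : dist c b < 2 * (δ / 4) := h2
    linarith [dist_triangle a c b]
  refine (coverEntropyEntourage_antitone T univ hVU).trans ?_
  refine EReal.le_of_forall_lt_iff_le.1 fun a ha => ?_
  have ha' : 0 < a := by exact_mod_cast ha
  obtain ⟨n, hn, s, hs, hcard⟩ := exists_small_cover hu (show 0 < δ / 4 by positivity) ha'
  refine (hs.coverEntropyEntourage_le_log_card_div (mapsTo_univ _ _) hn).trans ?_
  have hn' : (0 : EReal) < n := by exact_mod_cast Nat.pos_of_ne_zero hn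
  rw [EReal.div_le_iff_le_mul hn' (EReal.natCast_ne_top n)]
  have e : ((s.card : ℕ) : ENNReal) ≤ ENNReal.ofReal (Real.exp (a * n)) := by
    rw [← ENNReal.ofReal_natCast]
    exact ENNReal.ofReal_le_ofReal hcard
  refine (ENNReal.log_monotone e).trans ?_
  rw [ENNReal.log_ofReal_of_pos (Real.exp_pos _), Real.log_exp, mul_comm]
  norm_cast

end Crest.Agent.R123
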