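import Mathlib
import Crest.Agent.R123.Dyn2
import Crest.Agent.R123.Entropy

set_option autoImplicit false

open Complex Real Filter Metric
open scoped Topology Manifold

namespace Crest.Agent.R123

abbrev E3 : Type := EuclideanSpace ℝ (Fin 3)
abbrev E6 : Type := EuclideanSpace ℝ (Fin 6)

instance fact1 : Fact (Module.finrank ℝ ℂ = 1 + 1) := ⟨Complex.finrank_real_complex⟩
instance fact2 : Fact (Module.finrank ℝ E3 = 2 + 1) := ⟨by simp⟩
instance fact5 : Fact (Module.finrank ℝ E6 = 5 + 1) := ⟨by simp⟩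

/-- the manifold -/
abbrev MM : Type := sphere (0 : ℂ) 1 × sphere (0 : E3) 1 × sphere (0 : E6) 1

/-- its model -/
noncomputable abbrev II := (𝓡 1).prod ((𝓡 2).prod (𝓡 5))

noncomputable def cx (e : ℂ) : ℝ := 10 / π * arg e
noncomputable def cs (v : E3) : ℂ × ℝ := ((v 0 : ℂ) + (v 1 : ℂ) * I, v 2)
noncomputable def cw (n : E6) : ℝ := 20 * n 0
noncomputable def cy (n : E6) : ℂ × ℂ :=
  (((20 * n 1 : ℝ) : ℂ) + ((20 * n 2 : ℝ) : ℂ) * I, ((20 * n 3 : ℝ) : ℂ) + ((20 * n 4 : ℝ) : ℂ) * I)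
noncomputable def mk3 (s : ℂ × ℝ) : E3 := !₂[s.1.re, s.1.im, s.2]
noncomputable def mk6 (p : ℝ × ℂ × ℂ) : E6 :=
  !₂[p.1 / 20, p.2.1.re / 20, p.2.1.im / 20, p.2.2.re / 20, p.2.2.im / 20,
    √(1 - (p.1 ^ 2 + nsq p.2) / 400)]

@[fun_prop] theorem cd_cs : ContDiff ℝ 1 cs := by unfold cs; fun_prop
@[fun_prop] theorem cd_cw : ContDiff ℝ 1 cw := by unfold cw; fun_prop
@[fun_prop] theorem cd_cy : ContDiff ℝ 1 cy := by unfold cy; fun_prop
@[fun_prop] theorem cd_mk3 : ContDiff ℝ 1 mk3 := by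
  rw [contDiff_euclidean]
  intro i
  fin_cases i <;> simp [mk3] <;> fun_prop

theorem cd_mk6 {p : ℝ × ℂ × ℂ} (h : p.1 ^ 2 + nsq p.2 < 400) : ContDiffAt ℝ 1 mk6 p := by
  rw [contDiffAt_euclidean]
  intro i
  fin_cases i <;> simp [mk6]
  · fun_prop
  · fun_prop
  · fun_prop
  · fun_prop
  · fun_prop
  · exact ContDiffAt.sqrt (by fun_prop) (by linarith)

theorem cs_mk3 (s : ℂ × ℝ) : cs (mk3 s) = s := by simp [cs, mk3]
theorem mk3_cs (v : E3) : mk3 (cs v) = v := by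
  ext i; fin_cases i <;> simp [cs, mk3]
theorem cw_mk6 (p : ℝ × ℂ × ℂ) : cw (mk6 p) = p.1 := by simp [cw, mk6]; ring
theorem cy_mk6 (p : ℝ × ℂ × ℂ) : cy (mk6 p) = p.2 := by
  have e : ∀ a : ℝ, 20 * (a / 20) = a := fun a => by ring
  ext <;> simp [cy, mk6, -ofReal_mul, e]

theorem cs_mem (v : sphere (0 : E3) 1) : n2 (cs v).1 + (cs v).2 ^ 2 = 1 := by
  have h := mem_sphere_zero_iff_norm.1 v.2
  have := EuclideanSpace.real_norm_sq_eq (v : E3)
  rw [h, Fin.sum_univ_three] at this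
  simp [n2, cs]
  linarith

theorem mk3_mem {s : ℂ × ℝ} (h : n2 s.1 + s.2 ^ 2 = 1) : mk3 s ∈ sphere (0 : E3) 1 := by
  rw [mem_sphere_zero_iff_norm, ← sq_eq_sq₀ (norm_nonneg _) zero_le_one,
    EuclideanSpace.real_norm_sq_eq, Fin.sum_univ_three]
  simpa [mk3, n2] using h

theorem mk6_mem {p : ℝ × ℂ × ℂ} (h : p.1 ^ 2 + nsq p.2 < 400) : mk6 p ∈ sphere (0 : E6) 1 := by
  rw [mem_sphere_zero_iff_norm, ← sq_eq_sq₀ (norm_nonneg _) zero_le_one,
    EuclideanSpace.real_norm_sq_eq, Fin.sum_univ_six]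
  simp only [mk6, PiLp.toLp_apply, Matrix.cons_val_zero, Matrix.cons_val_one, Matrix.cons_val]
  rw [sq_sqrt (by linarith)]
  simp only [nsq, n2]
  ring

theorem cw_le (n : sphere (0 : E6) 1) : |cw n| ≤ 20 := by
  have h := mem_sphere_zero_iff_norm.1 n.2
  have := PiLp.norm_apply_le (n : E6) 0
  rw [h, Real.norm_eq_abs] at this
  rw [cw, abs_mul]
  norm_num
  linarith

theorem cx_mem (e : ℂ) : -10 < cx e ∧ cx e ≤ 10 := by
  have h1 := neg_pi_lt_arg e
  have h2 := arg_le_pi e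
  have := pi_pos
  rw [cx, div_mul_eq_mul_div, lt_div_iff₀ this, div_le_iff₀ this]
  constructor <;> linarith

theorem new_bound {δ : ℝ} (h0 : 0 < δ) {x w : ℝ} (hx0 : -10 ≤ x) (hx1 : x ≤ 10) (hw : |w| ≤ 20)
    {s : ℂ × ℝ} (hs : n2 s.1 + s.2 ^ 2 = 1) (y : ℂ × ℂ) :
    wN x w ^ 2 + nsq (yN δ x s y) < 400 := by
  have c0 := chi_nonneg x
  have c1 := chi_le x
  have h1 : wN x w ^ 2 ≤ 10 ^ 2 := by
    rw [abs_le] at hw
    apply sq_le_sq'
    · unfold wN; nlinarith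
    · unfold wN; nlinarith
  have h2 : ∀ a b : ℂ × ℂ, nsq (a + b) ≤ 2 * nsq a + 2 * nsq b := fun a b => by
    simp only [nsq, n2, Prod.fst_add, Prod.snd_add, add_re, add_im]
    nlinarith [sq_nonneg (a.1.re - b.1.re), sq_nonneg (a.1.im - b.1.im),
      sq_nonneg (a.2.re - b.2.re), sq_nonneg (a.2.im - b.2.im)]
  have hx : ‖s.1‖ ≤ 1 := by
    rw [n2_eq] at hs
    nlinarith [norm_nonneg s.1, sq_nonneg s.2]
  have hx2 : ‖s.1 ^ 2‖ ≤ 1 := by rw [norm_pow]; exact pow_le_one₀ (norm_nonneg _) hx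
  have h3 : nsq (Gam (4 - x / 2) s.1 (s.1 ^ 2)) ≤ 8 := by
    have r0 := STn (6 - 8 * (4 - x / 2))
    have r1 := STl (6 - 8 * (4 - x / 2))
    change 0 ≤ rr (4 - x / 2) at r0
    change rr (4 - x / 2) ≤ 1 at r1
    simp only [nsq, n2_eq, Gam]
    generalize rr (4 - x / 2) = p at r0 r1
    have a1 : ‖(((1 - p) * p : ℝ) : ℂ) * (s.1 - s.1 ^ 2)‖ ≤ 2 := by
      rw [norm_mul, Complex.norm_of_nonneg (by nlinarith)]
      have := norm_sub_le s.1 (s.1 ^ 2)
      have : (1 - p) * p ≤ 1 := by nlinarith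
      nlinarith [norm_nonneg (s.1 - s.1 ^ 2)]
    have a2 : ‖((p ^ 2 : ℝ) : ℂ) * s.1 + (((1 - p) ^ 2 : ℝ) : ℂ) * s.1 ^ 2‖ ≤ 2 := by
      refine (norm_add_le _ _).trans ?_
      rw [norm_mul, norm_mul, Complex.norm_of_nonneg (by positivity),
        Complex.norm_of_nonneg (by positivity)]
      have : p ^ 2 ≤ 1 := by nlinarith
      have : (1 - p) ^ 2 ≤ 1 := by nlinarith
      nlinarith [norm_nonneg s.1, norm_nonneg (s.1 ^ 2)]
    have a3 := pow_le_pow_left₀ (norm_nonneg _) a1 2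
    have a4 := pow_le_pow_left₀ (norm_nonneg _) a2 2
    linarith
  have h4 := h2 ((chi x * th s.2) • Gam (4 - x / 2) s.1 (s.1 ^ 2)) ((1 - chi x) • Grow δ y)
  rw [nsq_smul, nsq_smul] at h4
  have t0 : 0 ≤ th s.2 := STn _
  have t1 : th s.2 ≤ 1 := STl _
  have b1 : (chi x * th s.2) ^ 2 ≤ 1 := pow_le_one₀ (by positivity) (mul_le_one₀ c1 t0 t1)
  have b2 : (1 - chi x) ^ 2 ≤ 1 := pow_le_one₀ (by linarith) (by linarith)
  have b3 := mul_le_mul b1 h3 (nsq_nonneg _) zero_le_one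
  have b4 := mul_le_mul b2 (nsq_Grow_lt h0 y).le (nsq_nonneg _) zero_le_one
  unfold yN
  linarith

/-- ambient space -/
abbrev Amb : Type := ℂ × E3 × E6

/-- the ambient map, with the clock as a free parameter -/
noncomputable def FF (δ : ℝ) (q : ℝ × Amb) : Amb :=
  (q.2.1 * cexp (((π / 10 * step q.1 (cs q.2.2.1) (cy q.2.2.2) : ℝ) : ℂ) * I),
    mk3 (sph (cs q.2.2.1) (beta δ q.1 (cw q.2.2.2) (cy q.2.2.2))),
    mk6 (wN q.1 (cw q.2.2.2), yN δ q.1 (cs q.2.2.1) (cy q.2.2.2)))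

theorem cd_Grow {δ : ℝ} (h0 : 0 < δ) : ContDiff ℝ 1 (Grow δ) := by
  have hG : 0 < G0 δ := by unfold G0; positivity
  have h1 : ∀ y : ℂ × ℂ, 0 < 1 + 2 * G0 δ * nsq y / 64 := fun y => by
    have := nsq_nonneg y
    positivity
  unfold Grow lam
  refine ContDiff.smul (ContDiff.sqrt (ContDiff.div (by fun_prop) (by fun_prop)
    fun y => (h1 y).ne') fun y => (div_pos (by positivity) (h1 y)).ne') contDiff_id

theorem cd_sph {p : (ℂ × ℝ) × ℂ} (hd : PP p.1 p.2 ^ 2 + (1 - p.1.2) ^ 2 ≠ 0) :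
    ContDiffAt ℝ 1 (fun p : (ℂ × ℝ) × ℂ => sph p.1 p.2) p := by
  have hP : ContDiff ℝ 1 fun p : (ℂ × ℝ) × ℂ => PP p.1 p.2 := by
    unfold PP
    fun_prop
  have hD : ContDiff ℝ 1 fun p : (ℂ × ℝ) × ℂ => PP p.1 p.2 ^ 2 + (1 - p.1.2) ^ 2 :=
    (hP.pow 2).add (by fun_prop)
  unfold sph
  refine ContDiffAt.prodMk (ContDiffAt.mul ?_ (by fun_prop)) ?_
  · exact ofRealCLM.contDiff.contDiffAt.comp p (contDiffAt_const.div hD.contDiffAt hd)
  · exact ContDiffAt.div ((hP.pow 2).sub (by fun_prop)).contDiffAt hD.contDiffAt hd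

theorem cd_FF {δ : ℝ} (h0 : 0 < δ) (hrd : ContDiff ℝ 1 (rd δ)) {q : ℝ × Amb} (hx0 : -10 ≤ q.1)
    (hx1 : q.1 ≤ 10) (hw : |cw q.2.2.2| ≤ 20)
    (hs : n2 (cs q.2.2.1).1 + (cs q.2.2.1).2 ^ 2 = 1) : ContDiffAt ℝ 1 (FF δ) q := by
  have hG := cd_Grow h0
  have hb : ContDiff ℝ 1 fun q : ℝ × Amb => beta δ q.1 (cw q.2.2.2) (cy q.2.2.2) := by
    unfold beta bb
    fun_prop
  refine ContDiffAt.prodMk ?_ (ContDiffAt.prodMk ?_ ?_)
  · unfold step om kap
    fun_prop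
  · have hd := (den_pos hs (beta δ q.1 (cw q.2.2.2) (cy q.2.2.2))).ne'
    refine cd_mk3.contDiffAt.comp q ?_
    exact (cd_sph (p := (cs q.2.2.1, beta δ q.1 (cw q.2.2.2) (cy q.2.2.2))) hd).comp q
      (f := fun q : ℝ × Amb => (cs q.2.2.1, beta δ q.1 (cw q.2.2.2) (cy q.2.2.2)))
      (ContDiffAt.prodMk (by fun_prop) hb.contDiffAt)
  · refine (cd_mk6 (new_bound h0 hx0 hx1 hw hs _)).comp q
      (f := fun q : ℝ × Amb => (wN q.1 (cw q.2.2.2), yN δ q.1 (cs q.2.2.1) (cy q.2.2.2))) ?_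
    unfold wN yN chi th Gam
    fun_prop

theorem FF_far {δ x : ℝ} (hx : 8 ≤ |x|) (p : Amb) : FF δ (x, p) = FF δ (10, p) := by
  have h2 : 2 ≤ x ^ 2 := by nlinarith [sq_abs x]
  have hb : bb x = 0 := by
    rcases le_abs'.1 hx with h | h
    · exact bb_lo (by linarith)
    · exact bb_hi (by linarith)
  have hc : chi x = 0 := by
    rcases le_abs'.1 hx with h | h
    · exact chi_lo (by linarith)
    · exact chi_hi (by linarith)
  simp only [FF, step_one h2, beta_zero hb, wN_zero hc, yN_zero hc,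
    step_one (show (2 : ℝ) ≤ 10 ^ 2 by norm_num), beta_zero (bb_hi (show (5 : ℝ) ≤ 10 by norm_num)),
    wN_zero (chi_hi (show (29 / 4 : ℝ) ≤ 10 by norm_num)),
    yN_zero (chi_hi (show (29 / 4 : ℝ) ≤ 10 by norm_num))]

theorem cd_amb {δ : ℝ} (h0 : 0 < δ) (hrd : ContDiff ℝ 1 (rd δ)) {p : Amb} (he : ‖p.1‖ = 1)
    (hw : |cw p.2.2| ≤ 20) (hs : n2 (cs p.2.1).1 + (cs p.2.1).2 ^ 2 = 1) :
    ContDiffAt ℝ 1 (fun p : Amb => FF δ (cx p.1, p)) p := by
  have hne : p.1 ≠ 0 := fun h => by rw [h] at he; simp at he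
  by_cases h : p.1 ∈ slitPlane
  · refine (cd_FF h0 hrd (q := (cx p.1, p)) (cx_mem _).1.le (cx_mem _).2 hw hs).comp p
      (f := fun p : Amb => (cx p.1, p)) (ContDiffAt.prodMk ?_ contDiffAt_id)
    have h1 : ContDiffAt ℝ 1 Complex.log p.1 := (Complex.contDiffAt_log h).restrict_scalars ℝ
    have h2 : ContDiffAt ℝ 1 (fun p : Amb => 10 / π * (Complex.log p.1).im) p := by
      have := h1.comp p (f := fun p : Amb => p.1) contDiffAt_fst
      exact contDiffAt_const.mul (cd_im.contDiffAt.comp p this)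
    simpa only [log_im, cx] using h2
  · have h1 : p.1 = -1 := by
      rw [mem_slitPlane_iff, not_or, not_lt, not_not] at h
      have : p.1 = (p.1.re : ℂ) := Complex.ext rfl (by simp [h.2])
      rw [this, Complex.norm_real, Real.norm_of_nonpos h.1] at he
      rw [this, show p.1.re = -1 by linarith]
      simp
    have h2 : ContDiffAt ℝ 1 (fun p : Amb => FF δ (10, p)) p :=
      (cd_FF h0 hrd (q := (10, p)) (by norm_num) le_rfl hw hs).comp p
        (f := fun p : Amb => ((10 : ℝ), p)) (by fun_prop)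
    refine h2.congr_of_eventuallyEq ?_
    have hc : ContinuousAt (fun p : Amb => p.1.re / ‖p.1‖) p :=
      ContinuousAt.div (by fun_prop) (by fun_prop) (by rw [he]; norm_num)
    have hpi := pi_pos
    have hlt : p.1.re / ‖p.1‖ < Real.cos (4 / 5 * π) := by
      rw [h1]
      simp only [neg_re, one_re, norm_neg, norm_one, div_one]
      rw [← Real.cos_pi]
      exact Real.cos_lt_cos_of_nonneg_of_le_pi (by positivity) le_rfl (by linarith)
    have e2 : ∀ᶠ p' : Amb in 𝓝 p, p'.1 ≠ 0 := continuous_fst.continuousAt.eventually_ne hne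
    filter_upwards [hc.eventually (gt_mem_nhds hlt), e2] with p' a1 a2
    apply FF_far
    by_contra hcon
    push Not at hcon
    rw [cx, abs_mul, abs_of_pos (by positivity), div_mul_eq_mul_div, div_lt_iff₀ hpi] at hcon
    rw [← cos_arg a2, ← Real.cos_abs] at a1
    have := Real.cos_le_cos_of_nonneg_of_le_pi (abs_nonneg (arg p'.1))
      (show 4 / 5 * π ≤ π by linarith) (by linarith)
    linarith

/-- inclusion in the ambient space -/
def inc (m : MM) : Amb := (m.1.1, m.2.1.1, m.2.2.1)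

theorem norm_fst (m : MM) : ‖(m.1 : ℂ)‖ = 1 := mem_sphere_zero_iff_norm.1 m.1.2

theorem F1_mem (δ : ℝ) (m : MM) : (FF δ (cx (inc m).1, inc m)).1 ∈ sphere (0 : ℂ) 1 := by
  rw [mem_sphere_zero_iff_norm]
  simp only [FF, inc]
  rw [norm_mul, norm_fst, norm_exp_ofReal_mul_I, one_mul]

theorem F2_mem (δ : ℝ) (m : MM) : (FF δ (cx (inc m).1, inc m)).2.1 ∈ sphere (0 : E3) 1 :=
  mk3_mem (sph_mem (cs_mem m.2.1) _)

theorem F3_mem {δ : ℝ} (h0 : 0 < δ) (m : MM) :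
    (FF δ (cx (inc m).1, inc m)).2.2 ∈ sphere (0 : E6) 1 :=
  mk6_mem (new_bound h0 (cx_mem _).1.le (cx_mem _).2 (cw_le m.2.2) (cs_mem m.2.1) _)

/-- the map -/
noncomputable def ff {δ : ℝ} (h0 : 0 < δ) (m : MM) : MM :=
  (⟨_, F1_mem δ m⟩, ⟨_, F2_mem δ m⟩, ⟨_, F3_mem h0 m⟩)

theorem contMDiff_ff {δ : ℝ} (h0 : 0 < δ) (hrd : ContDiff ℝ 1 (rd δ)) :
    ContMDiff II II 1 (ff h0) := by
  have hinc : ContMDiff II 𝓘(ℝ, Amb) 1 inc :=
    (contMDiff_coe_sphere.comp contMDiff_fst).prodMk_space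
      ((contMDiff_coe_sphere.comp (contMDiff_fst.comp contMDiff_snd)).prodMk_space
        (contMDiff_coe_sphere.comp (contMDiff_snd.comp contMDiff_snd)))
  have hF : ContMDiff II 𝓘(ℝ, Amb) 1 fun m => FF δ (cx (inc m).1, inc m) := fun m =>
    (cd_amb h0 hrd (p := inc m) (norm_fst m) (cw_le m.2.2) (cs_mem m.2.1)).comp_contMDiffAt
      (hinc m)
  refine ContMDiff.prodMk ?_ (ContMDiff.prodMk ?_ ?_)
  · exact ContMDiff.codRestrict_sphere (contDiff_fst.comp_contMDiff hF) (F1_mem δ)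
  · exact ContMDiff.codRestrict_sphere ((contDiff_fst.comp contDiff_snd).comp_contMDiff hF)
      (F2_mem δ)
  · exact ContMDiff.codRestrict_sphere ((contDiff_snd.comp contDiff_snd).comp_contMDiff hF)
      (F3_mem h0)

theorem cx_mul {e : ℂ} (he : ‖e‖ = 1) {t x : ℝ} (n : ℤ) (h : x = cx e + t - 20 * n)
    (h1 : -10 < x) (h2 : x ≤ 10) : cx (e * cexp (((π / 10 * t : ℝ) : ℂ) * I)) = x := by
  have hpi := pi_pos
  have e1 : e = cexp (arg e * I) := by
    have := norm_mul_exp_arg_mul_I e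
    rw [he] at this
    simpa using this.symm
  have e2 : e * cexp (((π / 10 * t : ℝ) : ℂ) * I) = cexp (((π / 10 * x : ℝ) : ℂ) * I) := by
    have : π / 10 * x = arg e + π / 10 * t - n * (2 * π) := by
      rw [h, cx]; field_simp; ring
    rw [this]
    conv_lhs => rw [e1]
    push_cast
    rw [sub_mul, Complex.exp_sub, add_mul, Complex.exp_add, mul_assoc (n : ℂ),
      exp_int_mul_two_pi_mul_I, div_one]
  rw [e2, cx, exp_mul_I, arg_cos_add_sin_mul_I ⟨by nlinarith, by nlinarith⟩]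
  field_simp

/-- coordinates of an orbit -/
noncomputable def orb {δ : ℝ} (h0 : 0 < δ) (h1 : δ ≤ 1 / 2) (m : MM) : Orb δ where
  x k := cx ((ff h0)^[k] m).1
  s k := cs ((ff h0)^[k] m).2.1
  w k := cw ((ff h0)^[k] m).2.2
  y k := cy ((ff h0)^[k] m).2.2
  hδ0 := h0
  hδ1 := h1
  hx0 _ := (cx_mem _).1
  hx1 _ := (cx_mem _).2
  hs _ := cs_mem _
  xs k h := by
    rw [Function.iterate_succ_apply']
    refine cx_mul (norm_fst _) 0 (by simp [inc]) ?_ h
    linarith [(cx_mem ((ff h0)^[k] m).1).1, step_nonneg (cs_mem ((ff h0)^[k] m).2.1)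
      (cx ((ff h0)^[k] m).1) (cy ((ff h0)^[k] m).2.2)]
  xs' k h := by
    rw [Function.iterate_succ_apply']
    refine cx_mul (norm_fst _) 1 (by simp [inc]) (by linarith) ?_
    linarith [(cx_mem ((ff h0)^[k] m).1).2, step_le (cs_mem ((ff h0)^[k] m).2.1)
      (cx ((ff h0)^[k] m).1) (cy ((ff h0)^[k] m).2.2)]
  ss k := by rw [Function.iterate_succ_apply']; exact cs_mk3 _
  ws k := by rw [Function.iterate_succ_apply']; exact cw_mk6 _
  ys k := by rw [Function.iterate_succ_apply']; exact cy_mk6 _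

theorem disp_tendsto {δ : ℝ} (h0 : 0 < δ) (h1 : δ ≤ 1 / 2) (m : MM) :
    Tendsto (fun k : ℕ => dist ((ff h0)^[k + 1] m) ((ff h0)^[k] m)) atTop (𝓝 0) := by
  let O := orb h0 h1 m
  have t1 : Tendsto (fun k : ℕ => dist ((ff h0)^[k + 1] m).1 ((ff h0)^[k] m).1) atTop (𝓝 0) := by
    have hc : Continuous fun t : ℝ => ‖cexp (((π / 10 * t : ℝ) : ℂ) * I) - 1‖ := by fun_prop
    have := (hc.tendsto 0).comp O.st_tendsto
    simp only [mul_zero, ofReal_zero, zero_mul, Complex.exp_zero, sub_self, norm_zero] at this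
    refine this.congr fun k => ?_
    rw [Function.iterate_succ_apply', Subtype.dist_eq, dist_eq_norm]
    change _ = ‖(((ff h0)^[k] m).1 : ℂ) * cexp (((π / 10 * O.st k : ℝ) : ℂ) * I) - _‖
    rw [← mul_sub_one, norm_mul, norm_fst, one_mul]
    rfl
  have t2 : Tendsto (fun k : ℕ => dist ((ff h0)^[k + 1] m).2.1 ((ff h0)^[k] m).2.1) atTop
      (𝓝 0) := by
    obtain ⟨p, hp⟩ := O.s_tendsto
    have a := (cd_mk3.continuous.tendsto p).comp hp
    have b := ((tendsto_add_atTop_iff_nat 1).2 a).dist a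
    rw [dist_self] at b
    refine b.congr fun k => ?_
    simp only [Function.comp, O, orb, mk3_cs]
    rfl
  have t3 : Tendsto (fun k : ℕ => dist ((ff h0)^[k + 1] m).2.2 ((ff h0)^[k] m).2.2) atTop
      (𝓝 0) := by
    have a := (cd_mk6 (p := (0, 0)) (by simp [nsq, n2])).continuousAt.tendsto.comp
      (O.w_tendsto.prodMk_nhds O.y_tendsto)
    have b := ((tendsto_add_atTop_iff_nat 1).2 a).dist a
    rw [dist_self] at b
    rw [← tendsto_add_atTop_iff_nat 1] at b ⊢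
    refine b.congr fun k => ?_
    have e : ∀ k, (((ff h0)^[k + 1] m).2.2 : E6) = mk6 (O.w (k + 1), O.y (k + 1)) := by
      intro k
      rw [O.ws, O.ys, Function.iterate_succ_apply']
      rfl
    rw [Subtype.dist_eq, e, e]
    rfl
  simpa [Prod.dist_eq] using t1.max (t2.max t3)

end Crest.Agent.R123
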