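import Mathlib
import Crest.Agent.R123.Chern

set_option autoImplicit false

open Filter Complex
open scoped Topology ComplexConjugate

namespace Crest.Agent.R123

theorem face_self {n : ℕ} (i : Fin (n + 2)) (u : Dl n) : (face i u).1 i = 0 := by
  change FunOnFinite.linearMap ℝ ℝ i.succAbove u.1 i = 0
  rw [FunOnFinite.linearMap_apply_apply]
  apply Finset.sum_eq_zero
  intro x hx
  exact absurd (Finset.mem_filter.1 hx).2 (Fin.succAbove_ne i x)

theorem face_succAbove {n : ℕ} (i : Fin (n + 2)) (u : Dl n) (j : Fin (n + 1)) :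
    (face i u).1 (i.succAbove j) = u.1 j := by
  change FunOnFinite.linearMap ℝ ℝ i.succAbove u.1 (i.succAbove j) = _
  rw [FunOnFinite.linearMap_apply_apply]
  have : Finset.univ.filter (fun x => i.succAbove x = i.succAbove j) = {j} := by
    ext x
    simp
  rw [this, Finset.sum_singleton]

/-- first homogeneous coordinate -/
noncomputable def al (a b c : ℝ) : ℂ := (a - b : ℝ) + (c - 1 / 3 : ℝ) * I

/-- second homogeneous coordinate -/
noncomputable def be (a b c : ℝ) : ℂ := al a b c - (a * b * c : ℝ) * I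

theorem al_be {a b c a' b' : ℝ} (h' : a' + b' + c = 1) (h : al a b c = 0) : be a' b' c ≠ 0 := by
  intro e
  have h1 := congrArg im h
  have e1 := congrArg im e
  have e2 := congrArg re e
  simp [al, be] at h1 e1 e2
  have hc : c = 1 / 3 := by linarith
  have ha : a' = 1 / 3 := by linarith
  have hb : b' = 1 / 3 := by linarith
  rw [ha, hb, hc] at e1
  norm_num at e1

theorem be_eq {a b c : ℝ} (h : a * b * c = 0) : be a b c = al a b c := by simp [be, h]

theorem al_ne {a b c : ℝ} (h1 : a + b + c = 1) (h : a * b * c = 0) : al a b c ≠ 0 := fun e =>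
  al_be h1 e (by rw [be_eq h, e])

/-- nonzero vectors -/
abbrev V2 : Type := {v : ℂ × ℂ // v ≠ 0}

theorem sum3 (u : Dl 2) : u.1 0 + u.1 1 + u.1 2 = 1 := by
  have := u.2.2
  rwa [Fin.sum_univ_three] at this

theorem sum4 (u : Dl 3) : u.1 0 + u.1 1 + u.1 2 + u.1 3 = 1 := by
  have := u.2.2
  rwa [Fin.sum_univ_four] at this

theorem ab_ne {a b c : ℝ} (h : a + b + c = 1) : (al a b c, be a b c) ≠ 0 := fun e =>
  al_be h (congrArg Prod.fst e) (congrArg Prod.snd e)

theorem ab_mul_ne {a b c a' b' : ℝ} (h : a + b + c = 1) (h' : a' + b' + c = 1) :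
    (al a b c * al a' b' c, be a b c * be a' b' c) ≠ 0 := by
  intro e
  have e1 : al a b c * al a' b' c = 0 := congrArg Prod.fst e
  have e2 : be a b c * be a' b' c = 0 := congrArg Prod.snd e
  rcases mul_eq_zero.1 e1 with e1 | e1
  · exact mul_ne_zero (al_be h e1) (al_be h' e1) e2
  · exact mul_ne_zero (al_be h e1) (al_be h' e1) e2

@[fun_prop]
theorem cont_coord {n : ℕ} (i : Fin (n + 1)) : Continuous fun u : Dl n => u.1 i :=
  (continuous_apply i).comp continuous_subtype_val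

theorem eigen_model {X : Type} [TopologicalSpace X] (f : C(X, X)) (s : C(X, ℂ × ℝ))
    (hs : ∀ x, ‖(s x).1‖ ^ 2 + (s x).2 ^ 2 = 1) (J : C(ℝ × V2, X)) (κ : C(V2, ℝ))
    (hJs : ∀ t v, IsLift (s (J (t, v))) v.1)
    (hJ : ∀ t (v w : V2) (l : ℂ), w.1 = l • v.1 → J (t, w) = J (t, v))
    (hκ : ∀ v, 0 ≤ κ v) (hκ0 : ∀ v : V2, v.1.1 = v.1.2 → κ v = 0)
    (hf : ∀ v w : V2, w.1 = (v.1.1 ^ 2, v.1.2 ^ 2) → f (J (0, v)) = J (κ v, w)) :
    Module.End.HasEigenvalue
      (((AlgebraicTopology.singularHomologyFunctor (ModuleCat.{0} ℝ) 2).obj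
        (ModuleCat.of ℝ ℝ)).map (TopCat.ofHom f)).hom (2 : ℝ) := by
  obtain ⟨φ, hφ, hev⟩ := exists_cocycle s hs
  let vA : C(Dl 2, V2) := ⟨fun u => ⟨(al (u.1 0) (u.1 1) (u.1 2), be (u.1 0) (u.1 1) (u.1 2)),
    ab_ne (sum3 u)⟩, Continuous.subtype_mk (by unfold be al; fun_prop) _⟩
  let o : V2 := ⟨(1, 1), by simp⟩
  let A : C(Dl 2, X) := ⟨fun u => J (0, vA u), by fun_prop⟩
  let k : C(Dl 2, X) := ContinuousMap.const _ (J (0, o))
  let v0 : C(Dl 3, V2) := ⟨fun t => ⟨(al (t.1 0 + t.1 1) (t.1 2) (t.1 3),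
    be (t.1 0 + t.1 1) (t.1 2) (t.1 3)), ab_ne (sum4 t)⟩,
      Continuous.subtype_mk (by unfold be al; fun_prop) _⟩
  let v1 : C(Dl 3, V2) := ⟨fun t => ⟨(al (t.1 0) (t.1 1 + t.1 2) (t.1 3),
    be (t.1 0) (t.1 1 + t.1 2) (t.1 3)), ab_ne (by linarith [sum4 t])⟩,
      Continuous.subtype_mk (by unfold be al; fun_prop) _⟩
  let v01 : C(Dl 3, V2) := ⟨fun t => ⟨((v0 t).1.1 * (v1 t).1.1, (v0 t).1.2 * (v1 t).1.2),
    ab_mul_ne (sum4 t) (by linarith [sum4 t])⟩, Continuous.subtype_mk (by fun_prop) _⟩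
  let τ : C(Dl 3, X) := ⟨fun t => J (min (κ (v0 t)) (κ (v1 t)), v01 t), by fun_prop⟩
  have c10 : ∀ u : Dl 1, (face 0 u).1 0 = 0 ∧ (face 0 u).1 1 = u.1 0 ∧ (face 0 u).1 2 = u.1 1 :=
    fun u => ⟨face_self 0 u, face_succAbove 0 u 0, face_succAbove 0 u 1⟩
  have c11 : ∀ u : Dl 1, (face 1 u).1 0 = u.1 0 ∧ (face 1 u).1 1 = 0 ∧ (face 1 u).1 2 = u.1 1 :=
    fun u => ⟨face_succAbove 1 u 0, face_self 1 u, face_succAbove 1 u 1⟩
  have c12 : ∀ u : Dl 1, (face 2 u).1 0 = u.1 0 ∧ (face 2 u).1 1 = u.1 1 ∧ (face 2 u).1 2 = 0 :=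
    fun u => ⟨face_succAbove 2 u 0, face_succAbove 2 u 1, face_self 2 u⟩
  have hbd : ∀ (i : Fin 3) (u : Dl 1),
      (face i u).1 0 * (face i u).1 1 * (face i u).1 2 = 0 := by
    intro i u
    fin_cases i
    · simp [(c10 u).1]
    · simp [(c11 u).2.1]
    · simp [(c12 u).2.2]
  have hface : ∀ i, A.comp (face i) = k.comp (face i) := by
    intro i
    ext1 u
    refine hJ 0 o (vA (face i u)) (vA (face i u)).1.1 ?_
    ext
    · simp [o]
    · simp only [o, Prod.smul_snd, smul_eq_mul, mul_one]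
      exact be_eq (hbd i u)
  refine eigen_two f A k τ φ hface ?_ ?_ ?_ ?_ ?_ hφ ?_
  · ext1 u
    have a0 : (face 0 u).1 0 = 0 := face_self 0 u
    have a1 : (face 0 u).1 1 = u.1 0 := face_succAbove 0 u 0
    have a2 : (face 0 u).1 2 = u.1 1 := face_succAbove 0 u 1
    have a3 : (face 0 u).1 3 = u.1 2 := face_succAbove 0 u 2
    have e : (v1 (face 0 u)).1.1 = (v1 (face 0 u)).1.2 := (be_eq (by rw [a0]; ring)).symm
    have e0 : v0 (face 0 u) = vA u := Subtype.ext (by simp [v0, vA, a0, a1, a2, a3])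
    change J (min (κ (v0 (face 0 u))) (κ (v1 (face 0 u))), v01 (face 0 u)) = J (0, vA u)
    rw [hκ0 _ e, min_eq_right (hκ _)]
    refine hJ 0 _ _ (v1 (face 0 u)).1.1 ?_
    change ((v0 (face 0 u)).1.1 * (v1 (face 0 u)).1.1, (v0 (face 0 u)).1.2 * (v1 (face 0 u)).1.2)
      = _
    rw [e0, ← e]
    ext <;> simp [mul_comm]
  · ext1 u
    have a0 : (face 1 u).1 0 = u.1 0 := face_succAbove 1 u 0
    have a1 : (face 1 u).1 1 = 0 := face_self 1 u
    have a2 : (face 1 u).1 2 = u.1 1 := face_succAbove 1 u 1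
    have a3 : (face 1 u).1 3 = u.1 2 := face_succAbove 1 u 2
    have e0 : v0 (face 1 u) = vA u := Subtype.ext (by simp [v0, vA, a0, a1, a2, a3])
    have e1 : v1 (face 1 u) = vA u := Subtype.ext (by simp [v1, vA, a0, a1, a2, a3])
    change J (min (κ (v0 (face 1 u))) (κ (v1 (face 1 u))), v01 (face 1 u)) = f (J (0, vA u))
    rw [hf (vA u) (v01 (face 1 u)), e0, e1, min_self]
    change ((v0 (face 1 u)).1.1 * (v1 (face 1 u)).1.1, (v0 (face 1 u)).1.2 * (v1 (face 1 u)).1.2)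
      = _
    rw [e0, e1, sq, sq]
  · ext1 u
    have a0 : (face 2 u).1 0 = u.1 0 := face_succAbove 2 u 0
    have a1 : (face 2 u).1 1 = u.1 1 := face_succAbove 2 u 1
    have a2 : (face 2 u).1 2 = 0 := face_self 2 u
    have a3 : (face 2 u).1 3 = u.1 2 := face_succAbove 2 u 2
    have e : (v0 (face 2 u)).1.1 = (v0 (face 2 u)).1.2 := (be_eq (by rw [a2]; ring)).symm
    have e1 : v1 (face 2 u) = vA u := Subtype.ext (by simp [v1, vA, a0, a1, a2, a3])
    change J (min (κ (v0 (face 2 u))) (κ (v1 (face 2 u))), v01 (face 2 u)) = J (0, vA u)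
    rw [hκ0 _ e, min_eq_left (hκ _)]
    refine hJ 0 _ _ (v0 (face 2 u)).1.1 ?_
    change ((v0 (face 2 u)).1.1 * (v1 (face 2 u)).1.1, (v0 (face 2 u)).1.2 * (v1 (face 2 u)).1.2)
      = _
    rw [e1, ← e]
    ext <;> simp
  · ext1 u
    have a3 : (face 3 u).1 3 = 0 := face_self 3 u
    have e : (v0 (face 3 u)).1.1 = (v0 (face 3 u)).1.2 := (be_eq (by rw [a3]; ring)).symm
    have e' : (v1 (face 3 u)).1.1 = (v1 (face 3 u)).1.2 := (be_eq (by rw [a3]; ring)).symm
    change J (min (κ (v0 (face 3 u))) (κ (v1 (face 3 u))), v01 (face 3 u)) = J (0, o)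
    rw [hκ0 _ e, min_eq_left (hκ _)]
    refine hJ 0 _ _ ((v0 (face 3 u)).1.1 * (v1 (face 3 u)).1.1) ?_
    change ((v0 (face 3 u)).1.1 * (v1 (face 3 u)).1.1, (v0 (face 3 u)).1.2 * (v1 (face 3 u)).1.2)
      = _
    rw [← e, ← e']
    ext <;> simp [o]
  · ext1 u
    change f (J (0, o)) = J (0, o)
    rw [hf o o (by simp [o]), hκ0 o rfl]
  · -- the winding number of `al` along the boundary is not zero
    have s2 : ∀ u : Dl 1, u.1 0 + u.1 1 = 1 := fun u => by
      have := u.2.2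
      rwa [Fin.sum_univ_two] at this
    have p0 : ∀ u : Dl 1, 0 ≤ u.1 0 := fun u => u.2.1 0
    have m0 : ∀ u : Dl 1, -al 0 (u.1 0) (u.1 1) ∈ slitPlane := by
      intro u
      rcases (p0 u).eq_or_lt with h | h
      · right
        have : u.1 1 = 1 := by linarith [s2 u]
        simp [al, this]; norm_num
      · left; simpa [al] using h
    have m1 : ∀ u : Dl 1, al (u.1 0) 0 (u.1 1) ∈ slitPlane := by
      intro u
      rcases (p0 u).eq_or_lt with h | h
      · right
        have : u.1 1 = 1 := by linarith [s2 u]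
        simp [al, this]; norm_num
      · left; simpa [al] using h
    have m2 : ∀ u : Dl 1, al (u.1 0) (u.1 1) 0 ∈ slitPlane := by
      intro u
      right
      simp [al]
    let L0 : C(Dl 1, ℂ) := ⟨fun u => log (-al 0 (u.1 0) (u.1 1)) + Real.pi * I,
      (Continuous.clog (by unfold al; fun_prop) m0).add continuous_const⟩
    let L1 : C(Dl 1, ℂ) := ⟨fun u => log (al (u.1 0) 0 (u.1 1)),
      Continuous.clog (by unfold al; fun_prop) m1⟩
    let L2 : C(Dl 1, ℂ) := ⟨fun u => log (al (u.1 0) (u.1 1) 0),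
      Continuous.clog (by unfold al; fun_prop) m2⟩
    have key := hev A k ⟨fun u => (vA u).1, by fun_prop⟩ (ContinuousMap.const _ (1, 1))
      (fun t => hJs 0 (vA t)) (fun t => hJs 0 o) hface ![L0, L1, L2] (by
        intro i u
        have hb := be_eq (hbd i u)
        change (al _ _ _, be _ _ _) = exp _ • ((1 : ℂ), (1 : ℂ))
        rw [hb]
        suffices h : exp (![L0, L1, L2] i u) =
            al ((face i u).1 0) ((face i u).1 1) ((face i u).1 2) by
          rw [h]; ext <;> simp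
        fin_cases i
        · obtain ⟨a0, a1, a2⟩ := c10 u
          change exp (log (-al 0 (u.1 0) (u.1 1)) + Real.pi * I) =
            al ((face 0 u).1 0) ((face 0 u).1 1) ((face 0 u).1 2)
          rw [a0, a1, a2, exp_add, exp_log (slitPlane_ne_zero (m0 u)), exp_pi_mul_I]
          ring
        · obtain ⟨a0, a1, a2⟩ := c11 u
          change exp (log (al (u.1 0) 0 (u.1 1))) =
            al ((face 1 u).1 0) ((face 1 u).1 1) ((face 1 u).1 2)
          rw [a0, a1, a2, exp_log (slitPlane_ne_zero (m1 u))]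
        · obtain ⟨a0, a1, a2⟩ := c12 u
          change exp (log (al (u.1 0) (u.1 1) 0)) =
            al ((face 2 u).1 0) ((face 2 u).1 1) ((face 2 u).1 2)
          rw [a0, a1, a2, exp_log (slitPlane_ne_zero (m2 u))])
    have w00 : (vx (n := 1) 0).1 0 = 1 := by simp [vx, stdSimplex.vertex]
    have w01 : (vx (n := 1) 0).1 1 = 0 := by simp [vx, stdSimplex.vertex]
    have w10 : (vx (n := 1) 1).1 0 = 0 := by simp [vx, stdSimplex.vertex]
    have w11 : (vx (n := 1) 1).1 1 = 1 := by simp [vx, stdSimplex.vertex]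
    intro heq
    rw [heq, sub_self] at key
    simp only [Matrix.cons_val_zero, Matrix.cons_val_one, Matrix.cons_val_two, Matrix.head_cons,
      Matrix.tail_cons, L0, L1, L2, ContinuousMap.coe_mk, w00, w01, w10, w11, add_im, sub_im,
      log_im] at key
    have b1 : arg (-al 0 0 1) < 0 := arg_neg_iff.2 (by simp [al]; norm_num)
    have b2 : 0 ≤ arg (-al 0 1 0) := arg_nonneg_iff.2 (by simp [al])
    have b3 : 0 ≤ arg (al 0 0 1) := arg_nonneg_iff.2 (by simp [al]; norm_num)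
    have b4 : arg (al 0 1 0) < 0 := arg_neg_iff.2 (by simp [al])
    linarith

end Crest.Agent.R123
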