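import Mathlib
import Crest.Agent.R123.Map
import Crest.Agent.R123.TopEigen

set_option autoImplicit false

open Complex Real Filter Metric
open scoped Topology Manifold ComplexConjugate

namespace Crest.Agent.R123

/-- the Hopf map -/
noncomputable def hopf (v : ℂ × ℂ) : ℂ × ℝ :=
  (((2 / nsq v : ℝ) : ℂ) * (v.1 * conj v.2), (n2 v.1 - n2 v.2) / nsq v)

theorem nsq_pos' {v : ℂ × ℂ} (h : v ≠ 0) : 0 < nsq v := by
  refine (nsq_nonneg v).lt_of_ne fun h0 => h ?_
  have h1 := n2_nonneg v.1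
  have h2 := n2_nonneg v.2
  have h3 : n2 v.1 = 0 := by unfold nsq at h0; linarith
  have h4 : n2 v.2 = 0 := by unfold nsq at h0; linarith
  rw [n2_eq] at h3 h4
  exact Prod.ext (by simpa using h3) (by simpa using h4)

theorem n2_mul (a b : ℂ) : n2 (a * b) = n2 a * n2 b := by
  rw [n2_eq, n2_eq, n2_eq, norm_mul, mul_pow]

theorem n2_conj (a : ℂ) : n2 (conj a) = n2 a := by simp [n2]

theorem n2_real (a : ℝ) : n2 (a : ℂ) = a ^ 2 := by simp [n2]

theorem mul_conj_n2 (a : ℂ) : a * conj a = (n2 a : ℂ) := by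
  rw [mul_conj, n2_eq, normSq_eq_norm_sq]

theorem hopf_mem {v : ℂ × ℂ} (h : v ≠ 0) : n2 (hopf v).1 + (hopf v).2 ^ 2 = 1 := by
  have := (nsq_pos' h).ne'
  simp only [hopf, n2_mul, n2_conj, n2_real]
  field_simp
  unfold nsq
  ring

theorem hopf_lift {v : ℂ × ℂ} (h : v ≠ 0) : IsLift (hopf v) v := by
  have h0 : ((nsq v : ℝ) : ℂ) ≠ 0 := ofReal_ne_zero.2 (nsq_pos' h).ne'
  have h1 := mul_conj_n2 v.1
  have h2 := mul_conj_n2 v.2
  have h3 : ((nsq v : ℝ) : ℂ) = n2 v.1 + n2 v.2 := by simp [nsq]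
  refine ⟨h, ?_, ?_⟩
  · simp only [hopf]
    push_cast
    field_simp
    linear_combination 2 * v.1 * h2 - v.1 * h3
  · simp only [hopf, map_mul, conj_ofReal, conj_conj]
    push_cast
    field_simp
    linear_combination 2 * v.2 * h1 - v.2 * h3

theorem hopf_smul {v : ℂ × ℂ} (h : v ≠ 0) {l : ℂ} (hl : l ≠ 0) : hopf (l • v) = hopf v := by
  have h0 := (nsq_pos' h).ne'
  have h1 : n2 l ≠ 0 := by rw [n2_eq]; positivity
  have h2 : nsq (l • v) = n2 l * nsq v := by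
    simp only [nsq, Prod.smul_fst, Prod.smul_snd, smul_eq_mul, n2_mul]
    ring
  have h3 := mul_conj_n2 l
  have h0' : ((nsq v : ℝ) : ℂ) ≠ 0 := ofReal_ne_zero.2 h0
  have h1' : ((n2 l : ℝ) : ℂ) ≠ 0 := ofReal_ne_zero.2 h1
  simp only [hopf, h2, Prod.smul_fst, Prod.smul_snd, smul_eq_mul, n2_mul, map_mul]
  refine Prod.ext ?_ ?_
  · simp only
    push_cast
    field_simp
    linear_combination v.1 * conj v.2 * h3
  · simp only
    field_simp

theorem kap_hopf {v : ℂ × ℂ} (h : v ≠ 0) (e : v.1 = v.2) : kap (hopf v) = 0 := by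
  have h0 := (nsq_pos' h).ne'
  have : (hopf v).1 = 1 := by
    simp only [hopf]
    rw [e, mul_conj_n2, ← ofReal_mul, ← ofReal_one]
    congr 1
    field_simp
    rw [nsq, e]; ring
  simp [kap, this, n2]

theorem sph_hopf {v : ℂ × ℂ} (h : v ≠ 0) : sph (hopf v) 0 = hopf (v.1 ^ 2, v.2 ^ 2) := by
  have h0 := (nsq_pos' h)
  have h1 := n2_nonneg v.1
  have h2 := n2_nonneg v.2
  have h3 : nsq (v.1 ^ 2, v.2 ^ 2) = n2 v.1 ^ 2 + n2 v.2 ^ 2 := by
    simp only [nsq, sq, n2_mul]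
  have h4 : 0 < n2 v.1 ^ 2 + n2 v.2 ^ 2 := by
    unfold nsq at h0
    nlinarith [sq_nonneg (n2 v.1 - n2 v.2), pow_pos h0 2]
  have h5 : 1 + ((n2 v.1 - n2 v.2) / nsq v) ^ 2 = 2 * (n2 v.1 ^ 2 + n2 v.2 ^ 2) / nsq v ^ 2 := by
    field_simp
    unfold nsq
    ring
  rw [sph_zero]
  simp only [hopf, h3, h5]
  refine Prod.ext ?_ ?_
  · simp only [mul_pow, map_pow]
    rw [← mul_assoc, ← ofReal_pow, ← ofReal_mul]
    congr 2
    field_simp
  · simp only [sq v.1, sq v.2, n2_mul]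
    field_simp
    unfold nsq
    ring

theorem cont_hopf : Continuous fun v : V2 => hopf v.1 := by
  have h0 : ∀ v : V2, nsq v.1 ≠ 0 := fun v => (nsq_pos' v.2).ne'
  have h1 : Continuous nsq := cd_nsq.continuous
  have h2 : Continuous n2 := by unfold n2; fun_prop
  unfold hopf
  fun_prop (disch := assumption)

/-- the family of embedded spheres -/
noncomputable def JJ : C(ℝ × V2, MM) where
  toFun p := (⟨cexp (((π / 10 * p.1 : ℝ) : ℂ) * I), by
      rw [mem_sphere_zero_iff_norm, norm_exp_ofReal_mul_I]⟩,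
    ⟨mk3 (hopf p.2.1), mk3_mem (hopf_mem p.2.2)⟩, ⟨mk6 (0, 0), mk6_mem (by simp [nsq, n2])⟩)
  continuous_toFun := by
    refine Continuous.prodMk (Continuous.subtype_mk (by fun_prop) _)
      (Continuous.prodMk (Continuous.subtype_mk ?_ _) continuous_const)
    exact cd_mk3.continuous.comp (cont_hopf.comp continuous_snd)

theorem eigen_ff {δ : ℝ} (h0 : 0 < δ) (hc : Continuous (ff h0)) :
    Module.End.HasEigenvalue
      (((AlgebraicTopology.singularHomologyFunctor (ModuleCat.{0} ℝ) 2).obj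
        (ModuleCat.of ℝ ℝ)).map (TopCat.ofHom ⟨ff h0, hc⟩)).hom (2 : ℝ) := by
  have hk : Continuous kap := by
    have : ContDiff ℝ 1 kap := by unfold kap; fun_prop
    exact this.continuous
  refine eigen_model ⟨ff h0, hc⟩ ⟨fun m => cs m.2.1, cd_cs.continuous.comp (by fun_prop)⟩
    (fun m => ?_) JJ ⟨fun v => kap (hopf v.1), hk.comp cont_hopf⟩ (fun t v => ?_)
    (fun t v w l h => ?_) (fun v => kap_nonneg _) (fun v h => kap_hopf v.2 h) (fun v w h => ?_)
  · rw [← n2_eq]; exact cs_mem m.2.1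
  · change IsLift (cs (mk3 (hopf v.1))) v.1
    rw [cs_mk3]
    exact hopf_lift v.2
  · have hl : l ≠ 0 := by
      rintro rfl
      exact w.2 (by rw [h, zero_smul])
    refine Prod.ext rfl (Prod.ext (Subtype.ext ?_) rfl)
    change mk3 (hopf w.1) = mk3 (hopf v.1)
    rw [h, hopf_smul v.2 hl]
  · have e0 : cx (cexp (((π / 10 * 0 : ℝ) : ℂ) * I)) = 0 := by simp [cx]
    have e1 : ∀ s, step 0 s 0 = kap s := fun s => by
      rw [step, om_eq (by norm_num), ST0 (by simp [nsq, n2])]; ring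
    have e2 : bb 0 = 0 := bb_lo (by norm_num)
    have e3 : chi 0 = 0 := chi_lo (by norm_num)
    refine Prod.ext (Subtype.ext ?_) (Prod.ext (Subtype.ext ?_) (Subtype.ext ?_))
    · change cexp (((π / 10 * 0 : ℝ) : ℂ) * I) * cexp (((π / 10 *
        step (cx (cexp (((π / 10 * 0 : ℝ) : ℂ) * I))) (cs (mk3 (hopf v.1))) (cy (mk6 (0, 0))) : ℝ) :
          ℂ) * I) = cexp (((π / 10 * kap (hopf v.1) : ℝ) : ℂ) * I)
      rw [e0, cs_mk3, cy_mk6, e1]
      simp
    · change mk3 (sph (cs (mk3 (hopf v.1))) (beta δ (cx (cexp (((π / 10 * 0 : ℝ) : ℂ) * I)))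
        (cw (mk6 (0, 0))) (cy (mk6 (0, 0))))) = mk3 (hopf w.1)
      rw [e0, cs_mk3, beta_zero e2, sph_hopf v.2, h]
    · change mk6 (wN (cx (cexp (((π / 10 * 0 : ℝ) : ℂ) * I))) (cw (mk6 (0, 0))),
        yN δ (cx (cexp (((π / 10 * 0 : ℝ) : ℂ) * I))) (cs (mk3 (hopf v.1))) (cy (mk6 (0, 0)))) =
          mk6 (0, 0)
      rw [e0, wN_zero e3, yN_zero e3, cw_mk6, cy_mk6, Grow_zero]
      simp

end Crest.Agent.R123
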