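import Mathlib

set_option autoImplicit false

open Set
open scoped Manifold ContDiff

namespace Crest.Agent.R123

variable {E H F M : Type*} [NormedAddCommGroup E] [NormedSpace ℝ E] [TopologicalSpace H]
  [NormedAddCommGroup F] [NormedSpace ℝ F] [TopologicalSpace M]

/-- identification of the model space with another vector space -/
noncomputable def trH (I : ModelWithCorners ℝ E H) [I.Boundaryless] (L : E ≃L[ℝ] F) : H ≃ₜ F :=
  I.toHomeomorph.trans L.toHomeomorph

/-- transported charted space -/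
@[reducible] noncomputable def trCS (I : ModelWithCorners ℝ E H) [I.Boundaryless] (L : E ≃L[ℝ] F)
    (M : Type*) [TopologicalSpace M] [ChartedSpace H M] : ChartedSpace F M where
  atlas := (fun c : OpenPartialHomeomorph M H => c.transHomeomorph (trH I L)) '' atlas H M
  chartAt x := (chartAt H x).transHomeomorph (trH I L)
  mem_chart_source x := mem_chart_source H x
  chart_mem_atlas x := ⟨_, chart_mem_atlas H x, rfl⟩

theorem tr_isManifold (I : ModelWithCorners ℝ E H) [I.Boundaryless] (L : E ≃L[ℝ] F)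
    [ChartedSpace H M] [IsManifold I ∞ M] :
    @IsManifold ℝ _ F _ _ F _ 𝓘(ℝ, F) ∞ M _ (trCS I L M) := by
  let _ := trCS I L M
  refine isManifold_of_contDiffOn 𝓘(ℝ, F) ∞ M ?_
  rintro _ _ ⟨c, hc, rfl⟩ ⟨c', hc', rfl⟩
  have h := (contDiffGroupoid ∞ I).compatible hc hc'
  have h1 : ContDiffOn ℝ ∞ (I ∘ (c.symm ≫ₕ c') ∘ I.symm)
      (I.symm ⁻¹' (c.symm ≫ₕ c').source ∩ range I) := h.1
  have h2 := L.contDiff.comp_contDiffOn
    (h1.comp (s := L.symm ⁻¹' (I.symm ⁻¹' (c.symm ≫ₕ c').source ∩ range I))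
      L.symm.contDiff.contDiffOn (fun x hx => hx))
  refine (h2.congr fun x _ => rfl).mono ?_
  rintro x ⟨hx, -⟩
  refine ⟨?_, by rw [I.range_eq_univ]; trivial⟩
  exact hx

theorem tr_contMDiff (I : ModelWithCorners ℝ E H) [I.Boundaryless] (L : E ≃L[ℝ] F)
    [ChartedSpace H M] {n : WithTop ℕ∞} {f : M → M} (hf : ContMDiff I I n f) :
    @ContMDiff ℝ _ F _ _ F _ 𝓘(ℝ, F) M _ (trCS I L M) F _ _ F _ 𝓘(ℝ, F) M _ (trCS I L M) n f := by
  intro x
  have h := contMDiffAt_iff.1 (hf x)
  let _ := trCS I L M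
  refine contMDiffAt_iff.2 ⟨h.1, ?_⟩
  have h1 := h.2
  rw [I.range_eq_univ, contDiffWithinAt_univ] at h1
  have h2 : ContDiffAt ℝ n (extChartAt I (f x) ∘ f ∘ (extChartAt I x).symm)
      (L.symm (L (extChartAt I x x))) := by rwa [L.symm_apply_apply]
  have h3 := L.contDiff.contDiffAt.comp _ (h2.comp _ L.symm.contDiff.contDiffAt)
  exact h3.contDiffWithinAt

end Crest.Agent.R123
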